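import Vale.Agent.P310.H260.Digits

/-!
# P310: the Horn data of a flat machine: list of the rules, induction principle, step principle
-/

set_option linter.unusedVariables false

namespace Vale.Agent.P310

namespace Gen

variable {b : ℕ}

/-! ### Lists and functions -/

theorem relL_getD : ∀ {L : List DOp} {u u' : List ℕ}, RelL b L u u' → ∀ j, j < L.length →
    u.getD j 0 < b ∧ (L.getD j (0, 0, 0, 0)).inDom (u.getD j 0) ∧
      u'.getD j 0 = (L.getD j (0, 0, 0, 0)).val b (u.getD j 0)
  | [], _, _, _, j, hj => by simp at hj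
  | o :: L, [], _, h, _, _ => h.elim
  | o :: L, _ :: _, [], h, _, _ => h.elim
  | o :: L, d :: u, d' :: u', h, 0, _ => by simpa using h.1
  | o :: L, d :: u, d' :: u', h, j + 1, hj => by
    simpa using relL_getD h.2 j (by simpa using hj)

theorem relL_of_forall : ∀ (L : List DOp) (u u' : List ℕ), u.length = L.length →
    u'.length = L.length → (∀ j, j < L.length →
    u.getD j 0 < b ∧ (L.getD j (0, 0, 0, 0)).inDom (u.getD j 0) ∧
      u'.getD j 0 = (L.getD j (0, 0, 0, 0)).val b (u.getD j 0)) → RelL b L u u'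
  | [], [], [], _, _, _ => trivial
  | [], _ :: _, _, h, _, _ => by simp at h
  | [], [], _ :: _, _, h, _ => by simp at h
  | o :: L, [], _, h, _, _ => by simp at h
  | o :: L, _ :: _, [], _, h, _ => by simp at h
  | o :: L, d :: u, d' :: u', h1, h2, h => by
    refine ⟨by simpa using h 0 (by simp), relL_of_forall L u u' (by simpa using h1)
      (by simpa using h2) fun j hj => ?_⟩
    simpa using h (j + 1) (by simpa using hj)

theorem relL_append : ∀ {A B : List DOp} {u u' v v' : List ℕ}, RelL b A u u' → RelL b B v v' →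
    RelL b (A ++ B) (u ++ v) (u' ++ v')
  | [], B, [], [], v, v', _, h => h
  | o :: A, B, d :: u, d' :: u', v, v', h1, h2 => ⟨h1.1, relL_append h1.2 h2⟩
  | [], _, _ :: _, _, _, _, h, _ => h.elim
  | [], _, [], _ :: _, _, _, h, _ => h.elim
  | _ :: _, _, [], _, _, _, h, _ => h.elim
  | _ :: _, _, _ :: _, [], _, _, h, _ => h.elim

theorem relL_split : ∀ {A B : List DOp} {x x' : List ℕ}, RelL b (A ++ B) x x' →
    ∃ u v u' v', x = u ++ v ∧ x' = u' ++ v' ∧ RelL b A u u' ∧ RelL b B v v'
  | [], B, x, x', h => ⟨[], x, [], x', rfl, rfl, trivial, h⟩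
  | o :: A, B, [], _, h => h.elim
  | o :: A, B, _ :: _, [], h => h.elim
  | o :: A, B, d :: x, d' :: x', h => by
    obtain ⟨u, v, u', v', rfl, rfl, h1, h2⟩ := relL_split h.2
    exact ⟨d :: u, v, d' :: u', v', rfl, rfl, ⟨h.1, h1⟩, h2⟩

/-- the address with the digits `u` (time) and `v` (position) -/
def vec (h : ℕ) (x : List ℕ) : Fin h → ℕ := fun j => x.getD j 0

theorem vec_ofFn {h : ℕ} (x : Fin h → ℕ) : vec h (List.ofFn x) = x := by
  funext j
  simp [vec]

theorem nder_step {D : HData} {r : HRule} (hr : r ∈ D.rules) (hl : r.2.2.length = D.h)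
    {x x' : List ℕ} (h : RelL D.b r.2.2 x x') (hp : ∀ c ∈ r.1, D.NDer c (vec D.h x)) :
    D.NDer r.2.1 (vec D.h x') := by
  have h1 := relL_getD h
  have h2 := HData.NDer.step r hr (vec D.h x) (fun j => (h1 j (by omega)).1)
    (fun j => (h1 j (by omega)).2.1) hp
  have e : vec D.h x' = fun j : Fin D.h => (HRule.op r j).val D.b (vec D.h x j) := by
    funext j
    exact (h1 j (by omega)).2.2
  rw [e]
  exact h2

theorem nder_ind {D : HData} (Inv : ℕ → List ℕ → Prop) (h0 : Inv 0 (List.replicate D.h 0))
    (hl : ∀ r ∈ D.rules, r.2.2.length = D.h)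
    (hs : ∀ r ∈ D.rules, ∀ x x', RelL D.b r.2.2 x x' → (∀ c ∈ r.1, Inv c x) → Inv r.2.1 x')
    {c : ℕ} {x : Fin D.h → ℕ} (hd : D.NDer c x) : Inv c (List.ofFn x) := by
  induction hd with
  | base =>
    have e : List.ofFn (fun _ : Fin D.h => 0) = List.replicate D.h 0 := by simp
    rw [e]
    exact h0
  | step r hr x hb hx _ ih =>
    refine hs r hr (List.ofFn x) _ ?_ ih
    refine relL_of_forall _ _ _ (by simp [hl r hr]) (by simp [hl r hr]) fun j hj => ?_
    have hj' : j < D.h := by rw [← hl r hr]; exact hj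
    have e1 : (List.ofFn x).getD j 0 = x ⟨j, hj'⟩ := by
      simp [hj']
    have e2 : (List.ofFn fun j : Fin D.h => (HRule.op r j).val D.b (x j)).getD j 0 =
        (HRule.op r j).val D.b (x ⟨j, hj'⟩) := by
      simp [hj']
    rw [e1, e2]
    exact ⟨hb _, hx ⟨j, hj'⟩, rfl⟩

/-! ### The rules -/

/-- the rules of the Horn data of a flat machine -/
inductive IsRule (t : FTable) (w : List Bool) (b g : ℕ) :
    List ℕ → ℕ → List DOp → List DOp → Prop
  | acc : IsRule t w b g [tSt b 1] 1 (List.replicate g (forget b)) (List.replicate g (forget b))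
  | input (p : ℕ) (hp : p < w.length) : IsRule t w b g [0]
      (tCell b 0 (if w.getD p false then 2 else 1)) (zeroL g)
      (sett 0 p :: List.replicate (g - 1) (sett 0 0))
  | startSt : IsRule t w b g [0] (tSt b 0) (zeroL g) (zeroL g)
  | startE : IsRule t w b g [0] (tE b) (zeroL g) (zeroL g)
  | EE' (j : ℕ) (hj : j < g) : IsRule t w b g [tE b] (tE' b) (keepL b g) (incL b g j)
  | E'E : IsRule t w b g [tE' b] (tE b) (keepL b g) (keepL b g)
  | empty0 (j : ℕ) (hj : j < g) : IsRule t w b g [tE b] (tCell b 0 0) (keepL b g)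
      (geL b g w.length j)
  | empty (i : ℕ) (hi : i + 1 < b) : IsRule t w b g [tE b] (tCell b (i + 1) 0) (keepL b g)
      (keepL b g)
  | fire (s a : ℕ) (hs : s < t.length) (ha : a < (t.getD s (0, [])).2.length) :
      IsRule t w b g [tSt b s, tCell b (t.rd s) a] (tFire b s a) (keepL b g) (zeroL g)
  | FF' (s a : ℕ) (hs : s < t.length) (ha : a < (t.getD s (0, [])).2.length) (e : ℕ)
      (he : e < g) : IsRule t w b g [tFire b s a] (tFire' b s a) (keepL b g) (incL b g e)
  | F'F (s a : ℕ) (hs : s < t.length) (ha : a < (t.getD s (0, [])).2.length) :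
      IsRule t w b g [tFire' b s a] (tFire b s a) (keepL b g) (keepL b g)
  | state (s a : ℕ) (hs : s < t.length) (ha : a < (t.getD s (0, [])).2.length) (e : ℕ)
      (he : e < g) : IsRule t w b g [tFire b s a] (tSt b (t.act s a).2.2.2) (incL b g e) (zeroL g)
  | push (s a : ℕ) (hs : s < t.length) (ha : a < (t.getD s (0, [])).2.length)
      (hop : (t.act s a).1 = 1) : IsRule t w b g [tFire b s a]
      (tCellN b (t.act s a).2.1 ((t.act s a).2.2.1 + 1)) (keepL b g) (zeroL g)
  | pushCell (s a : ℕ) (hs : s < t.length) (ha : a < (t.getD s (0, [])).2.length)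
      (hop : (t.act s a).1 = 1) (d : ℕ) (hd : d < b) (hi : (t.act s a).2.1 < b) (e : ℕ)
      (he : e < g) : IsRule t w b g [tFire b s a, tCell b (t.act s a).2.1 d]
      (tCellN b (t.act s a).2.1 d) (keepL b g) (incL b g e)
  | popCell (s a : ℕ) (hs : s < t.length) (ha : a < (t.getD s (0, [])).2.length)
      (hop : (t.act s a).1 = 2) (d : ℕ) (hd : d < b) (hi : (t.act s a).2.1 < b) (e : ℕ)
      (he : e < g) : IsRule t w b g [tFire b s a, tCell b (t.act s a).2.1 d]
      (tCellN b (t.act s a).2.1 d) (keepL b g) (decL b g e)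
  | cell (s a : ℕ) (hs : s < t.length) (ha : a < (t.getD s (0, [])).2.length) (i : ℕ)
      (hi : i < b) (d : ℕ) (hd : d < b) (h1 : ¬ (i = (t.act s a).2.1 ∧ (t.act s a).1 = 1))
      (h2 : ¬ (i = (t.act s a).2.1 ∧ (t.act s a).1 = 2)) :
      IsRule t w b g [tFire b s a, tCell b i d] (tCellN b i d) (keepL b g) (keepL b g)
  | next (i : ℕ) (hi : i < b) (d : ℕ) (hd : d < b) (e : ℕ) (he : e < g) :
      IsRule t w b g [tCellN b i d] (tCell b i d) (incL b g e) (keepL b g)

theorem mem_cellRules {g s a op j i d : ℕ} {r : HRule} : r ∈ cellRules b g s a op j i d ↔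
    (i = j ∧ op = 1 ∧ ∃ e < g,
      r = ([tFire b s a, tCell b i d], tCellN b i d, keepL b g ++ incL b g e)) ∨
    (i = j ∧ op = 2 ∧ ∃ e < g,
      r = ([tFire b s a, tCell b i d], tCellN b i d, keepL b g ++ decL b g e)) ∨
    (¬ (i = j ∧ op = 1) ∧ ¬ (i = j ∧ op = 2) ∧
      r = ([tFire b s a, tCell b i d], tCellN b i d, keepL b g ++ keepL b g)) := by
  unfold cellRules
  by_cases h1 : i = j ∧ op = 1
  · rw [if_pos h1]
    obtain ⟨rfl, rfl⟩ := h1
    simp [eq_comm]
  · rw [if_neg h1]
    by_cases h2 : i = j ∧ op = 2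
    · rw [if_pos h2]
      obtain ⟨rfl, rfl⟩ := h2
      simp [eq_comm]
    · rw [if_neg h2]
      simp only [List.mem_singleton]
      constructor
      · intro h
        exact Or.inr (Or.inr ⟨h1, h2, h⟩)
      · rintro (⟨h3, h4, _⟩ | ⟨h3, h4, _⟩ | ⟨_, _, h⟩)
        · exact absurd ⟨h3, h4⟩ h1
        · exact absurd ⟨h3, h4⟩ h2
        · exact h

theorem mem_rules {t : FTable} {w : List Bool} {g : ℕ} {r : HRule} :
    r ∈ rules t w b g ↔ ∃ p c A B, r = (p, c, A ++ B) ∧ IsRule t w b g p c A B := by
  constructor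
  · intro h
    unfold rules at h
    rcases List.mem_cons.1 h with rfl | h
    · exact ⟨_, _, _, _, rfl, IsRule.acc⟩
    rcases List.mem_append.1 h with h | h
    · unfold inputRules at h
      obtain ⟨p, hp, rfl⟩ := List.mem_map.1 h
      exact ⟨_, _, _, _, rfl, IsRule.input p (List.mem_range.1 hp)⟩
    rcases List.mem_append.1 h with h | h
    · unfold startRules at h
      simp only [List.mem_append, List.mem_cons, List.mem_map, List.mem_range,
        List.not_mem_nil, or_false] at h
      rcases h with ((((rfl | rfl | rfl) | ⟨j, hj, rfl⟩) | ⟨j, hj, rfl⟩) | ⟨i, hi, rfl⟩)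
      · exact ⟨_, _, _, _, rfl, IsRule.startSt⟩
      · exact ⟨_, _, _, _, rfl, IsRule.startE⟩
      · exact ⟨_, _, _, _, rfl, IsRule.E'E⟩
      · exact ⟨_, _, _, _, rfl, IsRule.EE' j hj⟩
      · exact ⟨_, _, _, _, rfl, IsRule.empty0 j hj⟩
      · exact ⟨_, _, _, _, rfl, IsRule.empty i (by omega)⟩
    rcases List.mem_append.1 h with h | h
    · unfold tabRules at h
      obtain ⟨s, hs, h⟩ := List.mem_flatMap.1 h
      obtain ⟨a, ha, h⟩ := List.mem_flatMap.1 h
      rw [List.mem_range] at hs ha
      unfold actRules at h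
      simp only [List.mem_append, List.mem_cons, List.mem_map, List.mem_range,
        List.not_mem_nil, or_false, List.mem_flatMap] at h
      rcases h with (((((rfl | rfl) | ⟨e, he, rfl⟩) | ⟨e, he, rfl⟩) | h) | ⟨i, hi, d, hd, h⟩)
      · exact ⟨_, _, _, _, rfl, IsRule.fire s a hs ha⟩
      · exact ⟨_, _, _, _, rfl, IsRule.F'F s a hs ha⟩
      · exact ⟨_, _, _, _, rfl, IsRule.FF' s a hs ha e he⟩
      · exact ⟨_, _, _, _, rfl, IsRule.state s a hs ha e he⟩
      · split_ifs at h with hop
        · simp only [List.mem_singleton] at h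
          subst h
          exact ⟨_, _, _, _, rfl, IsRule.push s a hs ha hop⟩
        · simp at h
      · rcases mem_cellRules.1 h with ⟨rfl, hop, e, he, rfl⟩ | ⟨rfl, hop, e, he, rfl⟩ |
          ⟨h1, h2, rfl⟩
        · exact ⟨_, _, _, _, rfl, IsRule.pushCell s a hs ha hop d hd hi e he⟩
        · exact ⟨_, _, _, _, rfl, IsRule.popCell s a hs ha hop d hd hi e he⟩
        · exact ⟨_, _, _, _, rfl, IsRule.cell s a hs ha i hi d hd h1 h2⟩
    · unfold nextRules at h
      simp only [List.mem_map, List.mem_range, List.mem_flatMap] at h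
      obtain ⟨i, hi, d, hd, e, he, rfl⟩ := h
      exact ⟨_, _, _, _, rfl, IsRule.next i hi d hd e he⟩
  · rintro ⟨p, c, A, B, rfl, h⟩
    have htab : ∀ (s a : ℕ) (r : HRule), s < t.length → a < (t.getD s (0, [])).2.length →
        r ∈ actRules b g s (t.rd s) a (t.act s a) → r ∈ rules t w b g := by
      intro s a r hs ha hr
      unfold rules tabRules
      refine List.mem_cons_of_mem _ (List.mem_append_right _ (List.mem_append_right _
        (List.mem_append_left _ ?_)))
      exact List.mem_flatMap.2 ⟨s, List.mem_range.2 hs,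
        List.mem_flatMap.2 ⟨a, List.mem_range.2 ha, hr⟩⟩
    have hstart : ∀ r : HRule, r ∈ startRules w b g → r ∈ rules t w b g := by
      intro r hr
      unfold rules
      exact List.mem_cons_of_mem _ (List.mem_append_right _ (List.mem_append_left _ hr))
    have hact : ∀ (s a : ℕ) (r : HRule), s < t.length → a < (t.getD s (0, [])).2.length →
        (∃ i < b, ∃ d < b, r ∈ cellRules b g s a (t.act s a).1 (t.act s a).2.1 i d) →
        r ∈ rules t w b g := by
      rintro s a r hs ha ⟨i, hi, d, hd, hr⟩
      refine htab s a r hs ha ?_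
      unfold actRules
      refine List.mem_append_right _ (List.mem_flatMap.2 ⟨i, List.mem_range.2 hi,
        List.mem_flatMap.2 ⟨d, List.mem_range.2 hd, hr⟩⟩)
    cases h with
    | acc => exact List.mem_cons_self ..
    | input p hp =>
      unfold rules inputRules
      exact List.mem_cons_of_mem _ (List.mem_append_left _
        (List.mem_map.2 ⟨p, List.mem_range.2 hp, rfl⟩))
    | startSt => exact hstart _ (by simp [startRules])
    | startE => exact hstart _ (by simp [startRules])
    | EE' j hj =>
      refine hstart _ ?_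
      unfold startRules
      simp only [List.mem_append, List.mem_map, List.mem_range]
      exact Or.inl (Or.inl (Or.inr ⟨j, hj, rfl⟩))
    | E'E => exact hstart _ (by simp [startRules])
    | empty0 j hj =>
      refine hstart _ ?_
      unfold startRules
      simp only [List.mem_append, List.mem_map, List.mem_range]
      exact Or.inl (Or.inr ⟨j, hj, rfl⟩)
    | empty i hi =>
      refine hstart _ ?_
      unfold startRules
      simp only [List.mem_append, List.mem_map, List.mem_range]
      exact Or.inr ⟨i, by omega, rfl⟩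
    | fire s a hs ha =>
      exact htab s a _ hs ha (by simp [actRules])
    | FF' s a hs ha e he =>
      refine htab s a _ hs ha ?_
      unfold actRules
      simp only [List.mem_append, List.mem_map, List.mem_range]
      exact Or.inl (Or.inl (Or.inl (Or.inr ⟨e, he, rfl⟩)))
    | F'F s a hs ha =>
      exact htab s a _ hs ha (by simp [actRules])
    | state s a hs ha e he =>
      refine htab s a _ hs ha ?_
      unfold actRules
      simp only [List.mem_append, List.mem_map, List.mem_range]
      exact Or.inl (Or.inl (Or.inr ⟨e, he, rfl⟩))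
    | push s a hs ha hop =>
      refine htab s a _ hs ha ?_
      unfold actRules
      rw [if_pos hop]
      simp
    | pushCell s a hs ha hop d hd hi e he =>
      exact hact s a _ hs ha ⟨_, hi, d, hd, mem_cellRules.2 (Or.inl ⟨rfl, hop, e, he, rfl⟩)⟩
    | popCell s a hs ha hop d hd hi e he =>
      exact hact s a _ hs ha
        ⟨_, hi, d, hd, mem_cellRules.2 (Or.inr (Or.inl ⟨rfl, hop, e, he, rfl⟩))⟩
    | cell s a hs ha i hi d hd h1 h2 =>
      exact hact s a _ hs ha
        ⟨i, hi, d, hd, mem_cellRules.2 (Or.inr (Or.inr ⟨h1, h2, rfl⟩))⟩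
    | next i hi d hd e he =>
      unfold rules nextRules
      refine List.mem_cons_of_mem _ (List.mem_append_right _ (List.mem_append_right _
        (List.mem_append_right _ ?_)))
      simp only [List.mem_flatMap, List.mem_map, List.mem_range]
      exact ⟨i, hi, d, hd, e, he, rfl⟩

theorem IsRule.length {t : FTable} {w : List Bool} {g : ℕ} (hg : 0 < g) {p : List ℕ} {c : ℕ}
    {A B : List DOp} (h : IsRule t w b g p c A B) : A.length = g ∧ B.length = g := by
  cases h <;> constructor <;>
    first
    | simp only [List.length_replicate]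
    | simp only [zeroL, List.length_replicate]
    | simp only [keepL, List.length_replicate]
    | (simp only [List.length_cons, List.length_replicate]; omega)
    | exact length_one _ _ _ _ (by assumption)

end Gen

end Vale.Agent.P310
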