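import Vale.Agent.P310.H260.Sound

/-!
# P310: the Horn data of a flat machine: completeness
-/

set_option linter.unusedVariables false

namespace Vale.Agent.P310

namespace Gen

variable {b : ℕ}

/-- the fact of type `c` at time `τ` and position `π` is derivable -/
def F (t : FTable) (w : List Bool) (b g : ℕ) (c τ π : ℕ) : Prop :=
  (data t w b g).NDer c (vec (g + g) (dl b g τ ++ dl b g π))

theorem F.rule {t : FTable} {w : List Bool} {g : ℕ} (hg : 0 < g) {p : List ℕ} {c : ℕ}
    {A B : List DOp} (h : IsRule t w b g p c A B) {τ τ' π π' : ℕ}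
    (hA : RelL b A (dl b g τ) (dl b g τ')) (hB : RelL b B (dl b g π) (dl b g π'))
    (hp : ∀ x ∈ p, F t w b g x τ π) : F t w b g c τ' π' := by
  have h1 := h.length hg
  have h2 : (p, c, A ++ B) ∈ rules t w b g := mem_rules.2 ⟨p, c, A, B, rfl, h⟩
  exact nder_step (D := data t w b g) (r := (p, c, A ++ B)) h2
    (by show (A ++ B).length = g + g; simp [h1.1, h1.2]) (relL_append hA hB) hp

theorem F.zero {t : FTable} {w : List Bool} {g : ℕ} : F t w b g 0 0 0 := by
  unfold F
  have e : vec (g + g) (dl b g 0 ++ dl b g 0) = fun _ => 0 := by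
    funext j
    unfold vec
    rw [dl_zero, List.replicate_append_replicate]
    simp
  rw [e]
  exact HData.NDer.base

theorem F.goal {t : FTable} {w : List Bool} {g : ℕ} (h : F t w b g 1 0 0) :
    (data t w b g).NDer 1 fun _ => 0 := by
  unfold F at h
  have e : vec (g + g) (dl b g 0 ++ dl b g 0) = fun _ => 0 := by
    funext j
    unfold vec
    rw [dl_zero, List.replicate_append_replicate]
    simp
  rw [e] at h
  exact h

theorem relL_zero_dl (hb : 0 < b) (g : ℕ) : RelL b (zeroL g) (dl b g 0) (dl b g 0) :=
  (relL_sett hb hb).2 ⟨dl_zero g, dl_zero g⟩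

/-- in state `s` at time `τ` a genuine action is applied -/
def Real (t : FTable) (w : List Bool) (τ : ℕ) : Prop :=
  (t.run w τ).1 < t.length ∧
    rcode ((t.run w τ).2 (t.rd (t.run w τ).1)) < (t.getD (t.run w τ).1 (0, [])).2.length

theorem not_real {t : FTable} {w : List Bool} {τ : ℕ} (h : ¬ Real t w τ) :
    t.run w (τ + 1) = t.run w τ := by
  have hact : t.act (t.run w τ).1 (rcode ((t.run w τ).2 (t.rd (t.run w τ).1))) =
      (0, 0, 0, (t.run w τ).1) := by
    unfold FTable.act
    unfold Real at h
    by_cases h1 : (t.run w τ).1 < t.length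
    · have h2 : (t.getD (t.run w τ).1 (0, [])).2.length ≤
          rcode ((t.run w τ).2 (t.rd (t.run w τ).1)) := by
        by_contra h3
        exact h ⟨h1, by omega⟩
      rw [List.getD_eq_default _ _ h2]
    · rw [List.getD_eq_default t _ (by omega)]
      simp
  rw [run_succ]
  unfold FTable.step
  simp only
  rw [hact]
  simp [FAct.upd]

theorem not_real_stay {t : FTable} {w : List Bool} {τ : ℕ} (h : ¬ Real t w τ) (n : ℕ) :
    t.run w (τ + n) = t.run w τ := by
  have h1 := not_real h
  induction n with
  | zero => rfl
  | succ n ih =>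
    have h2 : t.run w (τ + (n + 1)) = t.step (t.run w (τ + n)) := run_succ t w (τ + n)
    rw [h2, ih, ← run_succ, h1]

/-- all codes and states in the run are small -/
theorem run_small {t : FTable} {w : List Bool} (hs : t.Small b) (hb : 3 ≤ b) (τ : ℕ) :
    (t.run w τ).1 < b ∧ ∀ i π, cd ((t.run w τ).2 i) π < b := by
  induction τ with
  | zero =>
    refine ⟨by show 0 < b; omega, fun i π => ?_⟩
    show cd ((fstart w).2 i) π < b
    unfold fstart
    by_cases hi : i = 0
    · simp only [hi, if_true]
      rw [cd_map]
      split_ifs <;> omega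
    · simp only [if_neg hi, cd_nil]
      omega
  | succ τ ih =>
    by_cases hr : Real t w τ
    · set a := rcode ((t.run w τ).2 (t.rd (t.run w τ).1)) with ha
      have h1 := step_at (t := t) (w := w) (s := (t.run w τ).1) (a := a) (τ := τ)
        ⟨rfl, (rcode_eq _).symm⟩
      have h2 := getD_act hs hr.1 hr.2
      rw [← ha] at h2
      rw [h1]
      refine ⟨h2.2.2, fun i π => ?_⟩
      show cd ((t.act (t.run w τ).1 a).upd (t.run w τ).2 i) π < b
      unfold FAct.upd
      split_ifs with g1 g2
      · by_cases hi : i = (t.act (t.run w τ).1 a).2.1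
        · subst hi
          rw [Function.update_self]
          cases π with
          | zero => exact h2.2.1
          | succ π => exact ih.2 _ _
        · rw [Function.update_of_ne hi]
          exact ih.2 _ _
      · by_cases hi : i = (t.act (t.run w τ).1 a).2.1
        · subst hi
          rw [Function.update_self, cd_tail]
          exact ih.2 _ _
        · rw [Function.update_of_ne hi]
          exact ih.2 _ _
      · exact ih.2 _ _
    · rw [not_real hr]
      exact ih

/-- all facts of the time `τ` are derivable -/
def AllF (t : FTable) (w : List Bool) (b g : ℕ) (τ : ℕ) : Prop :=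
  F t w b g (tSt b (t.run w τ).1) τ 0 ∧
    ∀ i < b, ∀ π, π + τ < b ^ g → F t w b g (tCell b i (cd ((t.run w τ).2 i) π)) τ π

theorem allF_zero {t : FTable} {w : List Bool} {g : ℕ} (hb : 3 ≤ b) (hw : w.length < b)
    (hg : 0 < g) : AllF t w b g 0 := by
  have h0 : 0 < b := by omega
  have hz := relL_zero_dl (b := b) h0 g
  refine ⟨?_, ?_⟩
  · exact F.rule hg IsRule.startSt hz hz fun x hx => by
      rw [List.mem_singleton] at hx
      subst hx
      exact F.zero
  · have hE : ∀ π, π < b ^ g → F t w b g (tE b) 0 π := by
      intro π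
      induction π with
      | zero =>
        intro _
        exact F.rule hg IsRule.startE hz hz fun x hx => by
          rw [List.mem_singleton] at hx
          subst hx
          exact F.zero
      | succ π ih =>
        intro hπ
        obtain ⟨j, hj, hr⟩ := exists_incL (b := b) (g := g) (v := π) hπ
        have h1 : F t w b g (tE' b) 0 (π + 1) :=
          F.rule hg (IsRule.EE' j hj) (relL_keep_dl h0 g 0) hr fun x hx => by
            rw [List.mem_singleton] at hx
            subst hx
            exact ih (by omega)
        exact F.rule hg IsRule.E'E (relL_keep_dl h0 g 0) (relL_keep_dl h0 g (π + 1))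
          fun x hx => by
            rw [List.mem_singleton] at hx
            subst hx
            exact h1
    intro i hi π hπ
    rw [Nat.add_zero] at hπ
    show F t w b g (tCell b i (cd ((fstart w).2 i) π)) 0 π
    unfold fstart
    by_cases hi0 : i = 0
    · subst hi0
      simp only [if_true]
      rw [cd_map]
      by_cases hp : π < w.length
      · rw [if_pos hp]
        have e1 : (if w.getD π false then 1 else 0) + 1 =
            (if w.getD π false then 2 else 1) := by
          cases w.getD π false <;> simp
        rw [e1]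
        refine F.rule hg (IsRule.input π hp) hz ?_ fun x hx => by
          rw [List.mem_singleton] at hx
          subst hx
          exact F.zero
        obtain ⟨g, rfl⟩ : ∃ g', g = g' + 1 := ⟨g - 1, by omega⟩
        have hπb : π < b := by omega
        show RelL b (sett 0 π :: List.replicate g (sett 0 0)) (0 % b :: dl b g (0 / b))
          (π % b :: dl b g (π / b))
        rw [Nat.mod_eq_of_lt hπb, Nat.div_eq_of_lt hπb, Nat.zero_mod, Nat.zero_div]
        refine ⟨⟨h0, ⟨le_rfl, Nat.zero_lt_one⟩, ?_⟩, (relL_sett h0 h0).2
          ⟨dl_zero g, dl_zero g⟩⟩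
        simp only [DOp.val, sett]
        rw [zero_mul, show 0 + (π + 1) - 1 = π by omega, Nat.mod_eq_of_lt hπb]
      · rw [if_neg hp]
        obtain ⟨j, hj, hr⟩ := exists_geL (b := b) (g := g) (v := π) (n := w.length) hπ
          (by omega) hg
        exact F.rule hg (IsRule.empty0 j hj) (relL_keep_dl h0 g 0) hr fun x hx => by
          rw [List.mem_singleton] at hx
          subst hx
          exact hE π hπ
    · simp only [if_neg hi0, cd_nil]
      obtain ⟨i, rfl⟩ : ∃ i', i = i' + 1 := ⟨i - 1, by omega⟩
      exact F.rule hg (IsRule.empty i hi) (relL_keep_dl h0 g 0) (relL_keep_dl h0 g π)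
        fun x hx => by
          rw [List.mem_singleton] at hx
          subst hx
          exact hE π hπ

theorem allF_succ {t : FTable} {w : List Bool} {g : ℕ} (hs : t.Small b) (hb : 3 ≤ b)
    (hg : 0 < g) {τ : ℕ} (hτ : τ + 1 < b ^ g) (hr : Real t w τ) (ih : AllF t w b g τ) :
    AllF t w b g (τ + 1) := by
  have h0 : 0 < b := by omega
  have hz := relL_zero_dl (b := b) h0 g
  set s := (t.run w τ).1 with hsdef
  set a := rcode ((t.run w τ).2 (t.rd s)) with hadef
  have hsl : s < t.length := hr.1
  have hal : a < (t.getD s (0, [])).2.length := hr.2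
  have hact := getD_act hs hsl hal
  have hcfg := step_at (t := t) (w := w) (s := s) (a := a) (τ := τ) ⟨rfl, (rcode_eq _).symm⟩
  obtain ⟨j0, hj0, hinc⟩ := exists_incL (b := b) (g := g) (v := τ) hτ
  -- the fire facts
  have hfire : ∀ π, π < b ^ g → F t w b g (tFire b s a) τ π := by
    intro π
    induction π with
    | zero =>
      intro _
      refine F.rule hg (IsRule.fire s a hsl hal) (relL_keep_dl h0 g τ) hz fun x hx => ?_
      rcases List.mem_cons.1 hx with rfl | hx
      · exact ih.1
      · rw [List.mem_singleton] at hx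
        subst hx
        have := ih.2 (t.rd s) (getD_rd hs hsl) 0 (by omega)
        rw [← rcode_eq, ← hadef] at this
        exact this
    | succ π ihπ =>
      intro hπ
      obtain ⟨j, hj, hr'⟩ := exists_incL (b := b) (g := g) (v := π) hπ
      have h1 : F t w b g (tFire' b s a) τ (π + 1) :=
        F.rule hg (IsRule.FF' s a hsl hal j hj) (relL_keep_dl h0 g τ) hr' fun x hx => by
          rw [List.mem_singleton] at hx
          subst hx
          exact ihπ (by omega)
      exact F.rule hg (IsRule.F'F s a hsl hal) (relL_keep_dl h0 g τ) (relL_keep_dl h0 g (π + 1))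
        fun x hx => by
          rw [List.mem_singleton] at hx
          subst hx
          exact h1
  have hpos : 0 < b ^ g := by omega
  -- the next cell facts
  have hcell : ∀ i < b, ∀ π, π + (τ + 1) < b ^ g →
      F t w b g (tCellN b i (cd ((t.run w (τ + 1)).2 i) π)) τ π := by
    intro i hi π hπ
    rw [hcfg]
    show F t w b g (tCellN b i (cd ((t.act s a).upd (t.run w τ).2 i) π)) τ π
    have hpair : ∀ (c₁ c₂ : ℕ) (π' : ℕ), F t w b g c₁ τ π' → F t w b g c₂ τ π' →
        ∀ x ∈ [c₁, c₂], F t w b g x τ π' := by
      intro c₁ c₂ π' h1 h2 x hx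
      rcases List.mem_cons.1 hx with rfl | hx
      · exact h1
      · rw [List.mem_singleton] at hx
        subst hx
        exact h2
    by_cases g1 : i = (t.act s a).2.1 ∧ (t.act s a).1 = 1
    · obtain ⟨rfl, hop⟩ := g1
      have e1 : (t.act s a).upd (t.run w τ).2 (t.act s a).2.1 =
          (t.act s a).2.2.1 :: (t.run w τ).2 (t.act s a).2.1 := by
        simp [FAct.upd, hop]
      rw [e1]
      cases π with
      | zero =>
        exact F.rule hg (IsRule.push s a hsl hal hop) (relL_keep_dl h0 g τ) hz fun x hx => by
          rw [List.mem_singleton] at hx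
          subst hx
          exact hfire 0 hpos
      | succ π =>
        obtain ⟨j, hj, hr'⟩ := exists_incL (b := b) (g := g) (v := π) (by omega)
        exact F.rule hg (IsRule.pushCell s a hsl hal hop _ ((run_small hs hb τ).2 _ π) hi j hj)
          (relL_keep_dl h0 g τ) hr' (hpair _ _ _ (hfire π (by omega)) (ih.2 _ hi π (by omega)))
    · by_cases g2 : i = (t.act s a).2.1 ∧ (t.act s a).1 = 2
      · obtain ⟨rfl, hop⟩ := g2
        have e1 : (t.act s a).upd (t.run w τ).2 (t.act s a).2.1 =
            ((t.run w τ).2 (t.act s a).2.1).tail := by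
          simp [FAct.upd, hop]
        rw [e1, cd_tail]
        obtain ⟨j, hj, hr'⟩ := exists_decL (b := b) (g := g) (v := π) (by omega)
        exact F.rule hg (IsRule.popCell s a hsl hal hop _ ((run_small hs hb τ).2 _ (π + 1)) hi
          j hj) (relL_keep_dl h0 g τ) hr'
          (hpair _ _ _ (hfire (π + 1) (by omega)) (ih.2 _ hi (π + 1) (by omega)))
      · have e1 : (t.act s a).upd (t.run w τ).2 i = (t.run w τ).2 i := by
          unfold FAct.upd
          split_ifs with k1 k2
          · exact Function.update_of_ne (fun e => g1 ⟨e, k1⟩) _ _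
          · exact Function.update_of_ne (fun e => g2 ⟨e, k2⟩) _ _
          · rfl
        rw [e1]
        exact F.rule hg (IsRule.cell s a hsl hal i hi _ ((run_small hs hb τ).2 i π) g1 g2)
          (relL_keep_dl h0 g τ) (relL_keep_dl h0 g π)
          (hpair _ _ _ (hfire π (by omega)) (ih.2 i hi π (by omega)))
  refine ⟨?_, ?_⟩
  · rw [hcfg]
    exact F.rule hg (IsRule.state s a hsl hal j0 hj0) hinc hz fun x hx => by
      rw [List.mem_singleton] at hx
      subst hx
      exact hfire 0 hpos
  · intro i hi π hπ
    refine F.rule hg (IsRule.next i hi _ ((run_small hs hb (τ + 1)).2 i π) j0 hj0) hinc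
      (relL_keep_dl h0 g π) fun x hx => ?_
    rw [List.mem_singleton] at hx
    subst hx
    exact hcell i hi π hπ

/-- **Completeness.** -/
theorem complete {t : FTable} {w : List Bool} {g : ℕ} (hs : t.Small b) (hb : 3 ≤ b)
    (hw : w.length < b) (hg : 0 < g) (h : ∃ n < b ^ g, t.AccAt w n) :
    (data t w b g).NDer 1 fun _ => 0 := by
  classical
  have h0 : 0 < b := by omega
  have hex : ∃ n, t.AccAt w n := ⟨h.choose, h.choose_spec.2⟩
  set n := Nat.find hex with hn
  have hacc : t.AccAt w n := Nat.find_spec hex
  have hnb : n < b ^ g := lt_of_le_of_lt (Nat.find_min' hex h.choose_spec.2) h.choose_spec.1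
  have hreal : ∀ τ < n, Real t w τ := by
    intro τ hτ
    by_contra hc
    have h1 := not_real_stay hc (n - τ)
    rw [show τ + (n - τ) = n by omega] at h1
    exact Nat.find_min hex hτ (by
      show (t.run w τ).1 = 1
      rw [← h1]
      exact hacc)
  have hall : ∀ τ, τ ≤ n → AllF t w b g τ := by
    intro τ
    induction τ with
    | zero => exact fun _ => allF_zero hb hw hg
    | succ τ ih =>
      intro hτ
      exact allF_succ hs hb hg (by omega) (hreal τ (by omega)) (ih (by omega))
  have h1 := (hall n le_rfl).1
  have h2 : (t.run w n).1 = 1 := hacc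
  rw [h2] at h1
  refine F.goal (F.rule hg IsRule.acc (τ := n) (π := 0) ?_ ?_ fun x hx => ?_)
  · exact relL_forget.2 ⟨length_dl g n, dl_lt h0 g n, dl_zero g⟩
  · exact relL_forget.2 ⟨length_dl g 0, dl_lt h0 g 0, dl_zero g⟩
  · rw [List.mem_singleton] at hx
    subst hx
    exact h1

/-- **W5.** The goal of the Horn data of a flat machine is derivable iff the machine reaches the
accepting state in less than `b ^ g` steps. -/
theorem goal_iff {t : FTable} {w : List Bool} {g : ℕ} (hs : t.Small b) (hb : 3 ≤ b)
    (hw : w.length < b) (hg : 0 < g) :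
    ((data t w b g).NDer 1 fun _ => 0) ↔ ∃ n < b ^ g, t.AccAt w n :=
  ⟨sound hs hb hw hg, complete hs hb hw hg⟩

end Gen

end Vale.Agent.P310
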