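import Vale.Agent.P310.H260.Gen

/-!
# P310: digit operations on digit lists
-/

namespace Vale.Agent.P310

namespace Gen

/-- the operations `L` are applicable to the digits `u` and give the digits `u'` -/
def RelL (b : ℕ) : List DOp → List ℕ → List ℕ → Prop
  | [], [], [] => True
  | o :: L, d :: u, d' :: u' => (d < b ∧ o.inDom d ∧ d' = o.val b d) ∧ RelL b L u u'
  | _, _, _ => False

theorem RelL.length {b : ℕ} : ∀ {L : List DOp} {u u' : List ℕ}, RelL b L u u' →
    u.length = L.length ∧ u'.length = L.length
  | [], [], [], _ => ⟨rfl, rfl⟩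
  | o :: L, d :: u, d' :: u', h => by
    have := RelL.length h.2
    simp [this.1, this.2]
  | [], _ :: _, _, h => h.elim
  | [], [], _ :: _, h => h.elim
  | _ :: _, [], _, h => h.elim
  | _ :: _, _ :: _, [], h => h.elim

/-- the number with the digits `u` (least significant digit first) -/
def num (b : ℕ) : List ℕ → ℕ
  | [] => 0
  | d :: u => d + b * num b u

/-- the `g` lowest digits of `v` -/
def dl (b : ℕ) : ℕ → ℕ → List ℕ
  | 0, _ => []
  | g + 1, v => (v % b) :: dl b g (v / b)

variable {b : ℕ}

@[simp] theorem length_dl (g v : ℕ) : (dl b g v).length = g := by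
  induction g generalizing v with
  | zero => rfl
  | succ g ih => simp [dl, ih]

theorem dl_lt (hb : 0 < b) (g v : ℕ) : ∀ d ∈ dl b g v, d < b := by
  induction g generalizing v with
  | zero => simp [dl]
  | succ g ih =>
    intro d hd
    rcases List.mem_cons.1 hd with rfl | hd
    · exact Nat.mod_lt _ hb
    · exact ih _ d hd

theorem num_dl (g v : ℕ) (hv : v < b ^ g) : num b (dl b g v) = v := by
  induction g generalizing v with
  | zero => simp at hv; simp [dl, num, hv]
  | succ g ih =>
    have hb : 0 < b := Nat.pos_of_ne_zero (by rintro rfl; simp at hv)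
    have h1 : v / b < b ^ g := by
      rw [Nat.div_lt_iff_lt_mul hb]
      rwa [pow_succ] at hv
    show v % b + b * num b (dl b g (v / b)) = v
    rw [ih _ h1]
    exact Nat.mod_add_div v b

theorem num_lt (u : List ℕ) (hu : ∀ d ∈ u, d < b) : num b u < b ^ u.length := by
  induction u with
  | nil => simp [num]
  | cons d u ih =>
    have h1 := ih fun e he => hu e (List.mem_cons_of_mem _ he)
    have h2 := hu d (List.mem_cons_self ..)
    have h3 : b * num b u + b ≤ b * b ^ u.length := by
      calc b * num b u + b = b * (num b u + 1) := by ring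
        _ ≤ b * b ^ u.length := Nat.mul_le_mul_left _ h1
    rw [List.length_cons, pow_succ, mul_comm (b ^ u.length) b]
    show d + b * num b u < _
    omega

theorem dl_num (u : List ℕ) (hu : ∀ d ∈ u, d < b) : dl b u.length (num b u) = u := by
  induction u with
  | nil => rfl
  | cons d u ih =>
    have h1 := ih fun e he => hu e (List.mem_cons_of_mem _ he)
    have h2 := hu d (List.mem_cons_self ..)
    have h3 : (d + b * num b u) % b = d := by
      rw [Nat.add_mul_mod_self_left, Nat.mod_eq_of_lt h2]
    have h4 : (d + b * num b u) / b = num b u := by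
      rw [Nat.add_mul_div_left _ _ (by omega), Nat.div_eq_of_lt h2, Nat.zero_add]
    show (d + b * num b u) % b :: dl b u.length ((d + b * num b u) / b) = d :: u
    rw [h3, h4, h1]

theorem dl_zero (g : ℕ) : dl b g 0 = List.replicate g 0 := by
  induction g with
  | zero => rfl
  | succ g ih => simp [dl, ih, List.replicate_succ]

theorem num_replicate_zero (g : ℕ) : num b (List.replicate g 0) = 0 := by
  induction g with
  | zero => rfl
  | succ g ih => simp [List.replicate_succ, num, ih]

/-! ### The digit lists -/

theorem RelL.lt : ∀ {L : List DOp} {u u' : List ℕ}, RelL b L u u' →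
    (∀ d ∈ u, d < b) ∧ (∀ d ∈ u', d < b)
  | [], [], [], _ => by simp
  | o :: L, d :: u, d' :: u', h => by
    have h1 := RelL.lt h.2
    have h2 : d' < b := by
      rw [h.1.2.2]
      exact Nat.mod_lt _ (by have := h.1.1; omega)
    constructor
    · intro e he
      rcases List.mem_cons.1 he with rfl | he
      · exact h.1.1
      · exact h1.1 e he
    · intro e he
      rcases List.mem_cons.1 he with rfl | he
      · exact h2
      · exact h1.2 e he
  | [], _ :: _, _, h => h.elim
  | [], [], _ :: _, h => h.elim
  | _ :: _, [], _, h => h.elim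
  | _ :: _, _ :: _, [], h => h.elim

theorem keep_out {d : ℕ} (h : d < b) : (keep b).val b d = d := by
  simp [DOp.val, keep, Nat.mod_eq_of_lt h]

theorem relL_keep {g : ℕ} {u u' : List ℕ} :
    RelL b (keepL b g) u u' ↔ u.length = g ∧ (∀ d ∈ u, d < b) ∧ u' = u := by
  unfold keepL
  induction g generalizing u u' with
  | zero =>
    constructor
    · intro h
      match u, u', h with
      | [], [], _ => simp
    · rintro ⟨h1, -, rfl⟩
      match u', h1 with
      | [], _ => trivial
  | succ g ih =>
    rw [List.replicate_succ]
    constructor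
    · intro h
      match u, u', h with
      | d :: u, d' :: u', h =>
        have h1 := ih.1 h.2
        have h2 := h.1
        rw [keep_out h2.1] at h2
        refine ⟨by simp [h1.1], ?_, by rw [h1.2.2, h2.2.2]⟩
        intro e he
        rcases List.mem_cons.1 he with rfl | he
        · exact h2.1
        · exact h1.2.1 e he
    · rintro ⟨h1, h2, rfl⟩
      match u', h1, h2 with
      | d :: u, h1, h2 =>
        have h3 := h2 d (List.mem_cons_self ..)
        refine ⟨⟨h3, ⟨Nat.zero_le _, h3⟩, (keep_out h3).symm⟩, ?_⟩
        exact ih.2 ⟨by simpa using h1, fun e he => h2 e (List.mem_cons_of_mem _ he), rfl⟩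

theorem relL_sett {g v v' : ℕ} (hv : v < b) (hv' : v' < b) {u u' : List ℕ} :
    RelL b (List.replicate g (sett v v')) u u' ↔
      u = List.replicate g v ∧ u' = List.replicate g v' := by
  have hout : ∀ d, (sett v v').val b d = v' := by
    intro d
    simp [DOp.val, sett, Nat.mod_eq_of_lt hv']
  induction g generalizing u u' with
  | zero =>
    constructor
    · intro h
      match u, u', h with
      | [], [], _ => simp
    · rintro ⟨rfl, rfl⟩
      trivial
  | succ g ih =>
    rw [List.replicate_succ, List.replicate_succ, List.replicate_succ]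
    constructor
    · intro h
      match u, u', h with
      | d :: u, d' :: u', h =>
        have h1 := ih.1 h.2
        have h2 := h.1
        rw [hout] at h2
        have h3 : v ≤ d ∧ d < v + 1 := h2.2.1
        have h4 : d = v := by omega
        rw [h1.1, h1.2, h2.2.2, h4]
        exact ⟨rfl, rfl⟩
    · rintro ⟨rfl, rfl⟩
      exact ⟨⟨hv, ⟨le_rfl, Nat.lt_succ_self _⟩, (hout _).symm⟩, ih.2 ⟨rfl, rfl⟩⟩

theorem relL_forget {g : ℕ} {u u' : List ℕ} :
    RelL b (List.replicate g (forget b)) u u' ↔
      u.length = g ∧ (∀ d ∈ u, d < b) ∧ u' = List.replicate g 0 := by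
  have hout : ∀ d, (forget b).val b d = 0 := by
    intro d
    simp [DOp.val, forget]
  induction g generalizing u u' with
  | zero =>
    constructor
    · intro h
      match u, u', h with
      | [], [], _ => simp
    · rintro ⟨h1, -, rfl⟩
      match u, h1 with
      | [], _ => trivial
  | succ g ih =>
    rw [List.replicate_succ, List.replicate_succ]
    constructor
    · intro h
      match u, u', h with
      | d :: u, d' :: u', h =>
        have h1 := ih.1 h.2
        have h2 := h.1
        rw [hout] at h2
        refine ⟨by simp [h1.1], ?_, by rw [h1.2.2, h2.2.2]⟩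
        intro e he
        rcases List.mem_cons.1 he with rfl | he
        · exact h2.1
        · exact h1.2.1 e he
    · rintro ⟨h1, h2, rfl⟩
      match u, h1, h2 with
      | d :: u, h1, h2 =>
        have h3 := h2 d (List.mem_cons_self ..)
        refine ⟨⟨h3, ⟨Nat.zero_le _, h3⟩, (hout _).symm⟩, ?_⟩
        exact ih.2 ⟨by simpa using h1, fun e he => h2 e (List.mem_cons_of_mem _ he), rfl⟩

theorem one_succ (g : ℕ) (lo o : DOp) (j : ℕ) :
    one b (g + 1) lo (j + 1) o = lo :: one b g lo j o := by
  unfold one
  rw [List.replicate_succ]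
  have : g + 1 - 1 - (j + 1) = g - 1 - j := by omega
  rw [this]
  rfl

theorem one_zero (g : ℕ) (lo o : DOp) :
    one b (g + 1) lo 0 o = o :: keepL b g := by
  unfold one keepL
  simp

theorem length_one (g : ℕ) (lo o : DOp) (j : ℕ) (hj : j < g) : (one b g lo j o).length = g := by
  unfold one
  simp only [List.length_append, List.length_replicate, List.length_cons]
  omega

theorem relL_incL_sound {g j : ℕ} (hj : j < g) {u u' : List ℕ} (h : RelL b (incL b g j) u u') :
    num b u' = num b u + 1 := by
  unfold incL at h
  induction g generalizing j u u' with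
  | zero => omega
  | succ g ih =>
    match j, u, u', h with
    | 0, u, u', h =>
      rw [one_zero] at h
      match u, u', h with
      | d :: u, d' :: u', h =>
        have h1 := (relL_keep.1 h.2).2.2
        have h2 : d < b - 1 := h.1.2.1.2
        have h3 := h.1.2.2
        have h4 : (inc b).val b d = d + 1 := by
          simp only [DOp.val, inc]
          rw [one_mul, Nat.mod_eq_of_lt (by omega)]
          omega
        rw [h4] at h3
        simp only [num, h1, h3]
        omega
    | j + 1, u, u', h =>
      rw [one_succ] at h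
      match u, u', h with
      | d :: u, d' :: u', h =>
        have h1 := ih (by omega) h.2
        have h0 := h.1.1
        have h2 : b - 1 ≤ d ∧ d < b - 1 + 1 := h.1.2.1
        have h3 := h.1.2.2
        have h4 : (sett (b - 1) 0).val b d = 0 := by
          simp [DOp.val, sett]
        rw [h4] at h3
        simp only [num, h1, h3]
        have h5 : d + 1 = b := by omega
        have h6 : b * (num b u + 1) = b * num b u + b := by ring
        omega

theorem relL_decL_sound {g j : ℕ} (hj : j < g) {u u' : List ℕ} (h : RelL b (decL b g j) u u') :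
    num b u' + 1 = num b u := by
  unfold decL at h
  induction g generalizing j u u' with
  | zero => omega
  | succ g ih =>
    match j, u, u', h with
    | 0, u, u', h =>
      rw [one_zero] at h
      match u, u', h with
      | d :: u, d' :: u', h =>
        have h1 := (relL_keep.1 h.2).2.2
        have h2 : 1 ≤ d ∧ d < b := h.1.2.1
        have h3 := h.1.2.2
        have h4 : (dec b).val b d = d - 1 := by
          simp only [DOp.val, dec]
          rw [one_mul, Nat.add_zero, Nat.mod_eq_of_lt (by omega)]
        rw [h4] at h3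
        simp only [num, h1, h3]
        omega
    | j + 1, u, u', h =>
      rw [one_succ] at h
      match u, u', h with
      | d :: u, d' :: u', h =>
        have h1 := ih (by omega) h.2
        have h0 := h.1.1
        have h2 : 0 ≤ d ∧ d < 0 + 1 := h.1.2.1
        have h3 := h.1.2.2
        have h4 : (sett 0 (b - 1)).val b d = b - 1 := by
          simp only [DOp.val, sett]
          rw [zero_mul, Nat.mod_eq_of_lt (by omega)]
          omega
        rw [h4] at h3
        simp only [num, ← h1, h3]
        have h5 : d = 0 := by omega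
        have h6 : b * (num b u' + 1) = b * num b u' + b := by ring
        omega

theorem relL_geL_sound {g j n : ℕ} (hj : j < g) (hn : n < b) {u u' : List ℕ}
    (h : RelL b (geL b g n j) u u') : u' = u ∧ n ≤ num b u := by
  unfold geL at h
  have gen : ∀ (g j : ℕ) (lo : ℕ), j < g → ∀ u u' : List ℕ,
      RelL b (one b g (keep b) j (ge b lo)) u u' → u' = u ∧ b ^ j * lo ≤ num b u := by
    intro g
    induction g with
    | zero => intro j lo hj; omega
    | succ g ih =>
      intro j lo hj u u' h
      match j, u, u', h with
      | 0, u, u', h =>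
        rw [one_zero] at h
        match u, u', h with
        | d :: u, d' :: u', h =>
          have h1 := (relL_keep.1 h.2).2.2
          have h2 : lo ≤ d ∧ d < b := h.1.2.1
          have h3 := h.1.2.2
          have h4 : (ge b lo).val b d = d := by
            simp [DOp.val, ge, Nat.mod_eq_of_lt h2.2]
          rw [h4] at h3
          refine ⟨by rw [h1, h3], ?_⟩
          simp only [num, pow_zero, one_mul]
          omega
      | j + 1, u, u', h =>
        rw [one_succ] at h
        match u, u', h with
        | d :: u, d' :: u', h =>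
          have h1 := ih j lo (by omega) _ _ h.2
          have h3 := h.1.2.2
          rw [keep_out h.1.1] at h3
          refine ⟨by rw [h1.1, h3], ?_⟩
          simp only [num]
          calc b ^ (j + 1) * lo = b * (b ^ j * lo) := by ring
            _ ≤ b * num b u := Nat.mul_le_mul_left _ h1.2
            _ ≤ _ := Nat.le_add_left _ _
  have h1 := gen g j _ hj u u' h
  refine ⟨h1.1, ?_⟩
  by_cases hj0 : j = 0
  · subst hj0
    simpa using h1.2
  · rw [if_neg hj0, mul_one] at h1
    have h2 : b ^ 1 ≤ b ^ j := Nat.pow_le_pow_right (by omega) (by omega)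
    rw [pow_one] at h2
    omega

/-! ### Completeness: applicability at the canonical digits -/

theorem relL_keep_dl (hb : 0 < b) (g v : ℕ) : RelL b (keepL b g) (dl b g v) (dl b g v) :=
  relL_keep.2 ⟨length_dl g v, dl_lt hb g v, rfl⟩

theorem exists_incL {g v : ℕ} (hv : v + 1 < b ^ g) :
    ∃ j < g, RelL b (incL b g j) (dl b g v) (dl b g (v + 1)) := by
  unfold incL
  induction g generalizing v with
  | zero => simp at hv
  | succ g ih =>
    have hb : 0 < b := Nat.pos_of_ne_zero (by rintro rfl; simp at hv)
    have hmod := Nat.mod_lt v hb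
    have hdm := Nat.mod_add_div v b
    by_cases hc : v % b + 1 < b
    · refine ⟨0, by omega, ?_⟩
      rw [one_zero]
      have e1 : (v + 1) % b = v % b + 1 := by
        rw [Nat.add_mod_eq_ite, Nat.mod_eq_of_lt (show 1 < b by omega)]
        rw [if_neg (by omega)]
      have e2 : (v + 1) / b = v / b := by
        have h3 : v + 1 = (v % b + 1) + b * (v / b) := by omega
        rw [h3, Nat.add_mul_div_left _ _ hb, Nat.div_eq_of_lt hc, Nat.zero_add]
      show RelL b (inc b :: keepL b g) (v % b :: dl b g (v / b))
        ((v + 1) % b :: dl b g ((v + 1) / b))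
      rw [e1, e2]
      refine ⟨⟨hmod, ⟨Nat.zero_le _, ?_⟩, ?_⟩, relL_keep_dl hb g _⟩
      · show v % b < b - 1
        omega
      · simp only [DOp.val, inc]
        rw [one_mul, show v % b + 2 - 1 = v % b + 1 by omega, Nat.mod_eq_of_lt hc]
    · have e0 : v % b = b - 1 := by omega
      have h3 : v + 1 = b * (v / b + 1) := by
        have : b * (v / b + 1) = b * (v / b) + b := by ring
        omega
      have h4 : v / b + 1 < b ^ g := by
        rw [h3, pow_succ, mul_comm (b ^ g) b] at hv
        exact Nat.lt_of_mul_lt_mul_left hv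
      obtain ⟨j, hj, hr⟩ := ih h4
      refine ⟨j + 1, by omega, ?_⟩
      rw [one_succ]
      have e1 : (v + 1) % b = 0 := by rw [h3, Nat.mul_mod_right]
      have e2 : (v + 1) / b = v / b + 1 := by rw [h3, Nat.mul_div_cancel_left _ hb]
      show RelL b (sett (b - 1) 0 :: one b g (sett (b - 1) 0) j (inc b)) (v % b :: dl b g (v / b))
        ((v + 1) % b :: dl b g ((v + 1) / b))
      rw [e1, e2]
      refine ⟨⟨hmod, ⟨?_, ?_⟩, ?_⟩, hr⟩
      · show b - 1 ≤ v % b
        omega
      · show v % b < b - 1 + 1
        omega
      · simp [DOp.val, sett]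

theorem exists_decL {g v : ℕ} (hv : v + 1 < b ^ g) :
    ∃ j < g, RelL b (decL b g j) (dl b g (v + 1)) (dl b g v) := by
  unfold decL
  induction g generalizing v with
  | zero => simp at hv
  | succ g ih =>
    have hb : 0 < b := Nat.pos_of_ne_zero (by rintro rfl; simp at hv)
    have hmod := Nat.mod_lt v hb
    have hdm := Nat.mod_add_div v b
    by_cases hc : v % b + 1 < b
    · refine ⟨0, by omega, ?_⟩
      rw [one_zero]
      have e1 : (v + 1) % b = v % b + 1 := by
        rw [Nat.add_mod_eq_ite, Nat.mod_eq_of_lt (show 1 < b by omega)]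
        rw [if_neg (by omega)]
      have e2 : (v + 1) / b = v / b := by
        have h3 : v + 1 = (v % b + 1) + b * (v / b) := by omega
        rw [h3, Nat.add_mul_div_left _ _ hb, Nat.div_eq_of_lt hc, Nat.zero_add]
      show RelL b (dec b :: keepL b g) ((v + 1) % b :: dl b g ((v + 1) / b))
        (v % b :: dl b g (v / b))
      rw [e1, e2]
      refine ⟨⟨hc, ⟨?_, ?_⟩, ?_⟩, relL_keep_dl hb g _⟩
      · show 1 ≤ v % b + 1
        omega
      · show v % b + 1 < b
        omega
      · simp only [DOp.val, dec]
        rw [one_mul, show v % b + 1 + 0 - 1 = v % b by omega, Nat.mod_eq_of_lt hmod]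
    · have e0 : v % b = b - 1 := by omega
      have h3 : v + 1 = b * (v / b + 1) := by
        have : b * (v / b + 1) = b * (v / b) + b := by ring
        omega
      have h4 : v / b + 1 < b ^ g := by
        rw [h3, pow_succ, mul_comm (b ^ g) b] at hv
        exact Nat.lt_of_mul_lt_mul_left hv
      obtain ⟨j, hj, hr⟩ := ih h4
      refine ⟨j + 1, by omega, ?_⟩
      rw [one_succ]
      have e1 : (v + 1) % b = 0 := by rw [h3, Nat.mul_mod_right]
      have e2 : (v + 1) / b = v / b + 1 := by rw [h3, Nat.mul_div_cancel_left _ hb]
      show RelL b (sett 0 (b - 1) :: one b g (sett 0 (b - 1)) j (dec b))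
        ((v + 1) % b :: dl b g ((v + 1) / b)) (v % b :: dl b g (v / b))
      rw [e1, e2]
      refine ⟨⟨hb, ⟨le_rfl, Nat.zero_lt_one⟩, ?_⟩, hr⟩
      simp only [DOp.val, sett]
      rw [zero_mul, show 0 + (b - 1 + 1) - 1 = b - 1 by omega, e0,
        Nat.mod_eq_of_lt (show b - 1 < b by omega)]

theorem exists_geL {g v n : ℕ} (hv : v < b ^ g) (hn : n ≤ v) (hg : 0 < g) :
    ∃ j < g, RelL b (geL b g n j) (dl b g v) (dl b g v) := by
  have hb : 0 < b := Nat.pos_of_ne_zero (by
    rintro rfl
    rw [Nat.zero_pow hg] at hv
    omega)
  have gen : ∀ (g v : ℕ), v < b ^ g → 0 < v →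
      ∃ j < g, RelL b (one b g (keep b) j (ge b 1)) (dl b g v) (dl b g v) := by
    intro g
    induction g with
    | zero => intro v hv h0; simp at hv; omega
    | succ g ih =>
      intro v hv h0
      have hmod := Nat.mod_lt v hb
      have hdm := Nat.mod_add_div v b
      by_cases hc : 1 ≤ v % b
      · refine ⟨0, by omega, ?_⟩
        rw [one_zero]
        refine ⟨⟨hmod, ⟨hc, hmod⟩, ?_⟩, relL_keep_dl hb g _⟩
        simp [DOp.val, ge]
      · have h1 : v / b < b ^ g := by
          rw [Nat.div_lt_iff_lt_mul hb]
          rwa [pow_succ] at hv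
        have h2 : 0 < v / b := by
          rcases Nat.eq_zero_or_pos (v / b) with h | h
          · rw [h] at hdm; omega
          · exact h
        obtain ⟨j, hj, hr⟩ := ih (v / b) h1 h2
        refine ⟨j + 1, by omega, ?_⟩
        rw [one_succ]
        exact ⟨⟨hmod, ⟨Nat.zero_le _, hmod⟩, (keep_out hmod).symm⟩, hr⟩
  obtain ⟨g, rfl⟩ : ∃ g', g = g' + 1 := ⟨g - 1, by omega⟩
  have hmod := Nat.mod_lt v hb
  have hdm := Nat.mod_add_div v b
  by_cases hc : n ≤ v % b
  · refine ⟨0, by omega, ?_⟩
    unfold geL
    rw [if_pos rfl, one_zero]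
    refine ⟨⟨hmod, ⟨hc, hmod⟩, ?_⟩, relL_keep_dl hb g _⟩
    simp [DOp.val, ge]
  · have h1 : v / b < b ^ g := by
      rw [Nat.div_lt_iff_lt_mul hb]
      rwa [pow_succ] at hv
    have h2 : 0 < v / b := by
      rcases Nat.eq_zero_or_pos (v / b) with h | h
      · rw [h] at hdm; omega
      · exact h
    obtain ⟨j, hj, hr⟩ := gen g (v / b) h1 h2
    refine ⟨j + 1, by omega, ?_⟩
    unfold geL
    rw [if_neg (Nat.succ_ne_zero j), one_succ]
    exact ⟨⟨hmod, ⟨Nat.zero_le _, hmod⟩, (keep_out hmod).symm⟩, hr⟩

end Gen

end Vale.Agent.P310
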