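import Vale.Agent.P310.HData
import Vale.Agent.P310.Flat

/-!
# P310: the Horn data of a flat machine

Address digits `0, …, g - 1`: time `t < b ^ g`; digits `g, …, 2 g - 1`: position `p < b ^ g`.
Types: `St s` (state at time `t`, `p = 0`), `Cell i a` (at time `t`, the code at position `p` of
stack `i` is `a`; position `0` is the top), `CellN i a` (the same at time `t + 1`), `Fire s a` (at
time `t` the row `s` is used with read code `a`; all `p`), `Fire' s a`, `E`, `E'` (`t = 0`).
-/

namespace Vale.Agent.P310

namespace Gen

/-- numbering of types, `tag < 8`, `u, v < b` -/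
def ty (b tag u v : ℕ) : ℕ := 2 + (tag + 8 * (u + b * v))

abbrev tSt (b s : ℕ) : ℕ := ty b 0 s 0
abbrev tCell (b i a : ℕ) : ℕ := ty b 1 i a
abbrev tCellN (b i a : ℕ) : ℕ := ty b 2 i a
abbrev tFire (b s a : ℕ) : ℕ := ty b 3 s a
abbrev tFire' (b s a : ℕ) : ℕ := ty b 4 s a
abbrev tE (b : ℕ) : ℕ := ty b 5 0 0
abbrev tE' (b : ℕ) : ℕ := ty b 6 0 0

/-- the number of types -/
def nC (b : ℕ) : ℕ := 2 + 8 * (b * b)

/-- digit operations: keep -/
def keep (b : ℕ) : DOp := (0, b, 1, 1)
/-- digit operations: `d ↦ d + 1` -/
def inc (b : ℕ) : DOp := (0, b - 1, 1, 2)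
/-- digit operations: `d ↦ d - 1` -/
def dec (b : ℕ) : DOp := (1, b, 1, 0)
/-- digit operations: `v ↦ v'` -/
def sett (v v' : ℕ) : DOp := (v, v + 1, 0, v' + 1)
/-- digit operations: everything `↦ 0` -/
def forget (b : ℕ) : DOp := (0, b, 0, 1)
/-- digit operations: keep, with domain `lo ≤ d` -/
def ge (b lo : ℕ) : DOp := (lo, b, 1, 1)

/-- keep all digits -/
def keepL (b g : ℕ) : List DOp := List.replicate g (keep b)
/-- all digits are `0`, and stay so -/
def zeroL (g : ℕ) : List DOp := List.replicate g (sett 0 0)
/-- digits `< j`: operation `lo`; digit `j`: operation `o`; digits `> j`: keep -/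
def one (b g : ℕ) (lo : DOp) (j : ℕ) (o : DOp) : List DOp :=
  List.replicate j lo ++ o :: List.replicate (g - 1 - j) (keep b)
/-- add one, the carry stops at digit `j` -/
def incL (b g j : ℕ) : List DOp := one b g (sett (b - 1) 0) j (inc b)
/-- subtract one, the borrow stops at digit `j` -/
def decL (b g j : ℕ) : List DOp := one b g (sett 0 (b - 1)) j (dec b)
/-- the number is `≥ n` (where `n < b`), because of digit `j` -/
def geL (b g n j : ℕ) : List DOp := one b g (keep b) j (ge b (if j = 0 then n else 1))

/-- the rules of the input: `0`: start -/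
def inputRules (w : List Bool) (b g : ℕ) : List HRule :=
  (List.range w.length).map fun p =>
    ([0], tCell b 0 (if w.getD p false then 2 else 1),
      zeroL g ++ (sett 0 p :: List.replicate (g - 1) (sett 0 0)))

/-- the rules of the start configuration -/
def startRules (w : List Bool) (b g : ℕ) : List HRule :=
  [([0], tSt b 0, zeroL g ++ zeroL g), ([0], tE b, zeroL g ++ zeroL g),
    ([tE' b], tE b, keepL b g ++ keepL b g)] ++
  (List.range g).map (fun j => ([tE b], tE' b, keepL b g ++ incL b g j)) ++
  (List.range g).map (fun j => ([tE b], tCell b 0 0, keepL b g ++ geL b g w.length j)) ++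
  (List.range (b - 1)).map (fun i => ([tE b], tCell b (i + 1) 0, keepL b g ++ keepL b g))

/-- the rules for the effect of the action `(op, j, c, s')`, used in state `s` for the code `a`, on
the code `d` of stack `i` -/
def cellRules (b g s a op j i d : ℕ) : List HRule :=
  if i = j ∧ op = 1 then
    (List.range g).map fun e =>
      ([tFire b s a, tCell b i d], tCellN b i d, keepL b g ++ incL b g e)
  else if i = j ∧ op = 2 then
    (List.range g).map fun e =>
      ([tFire b s a, tCell b i d], tCellN b i d, keepL b g ++ decL b g e)
  else [([tFire b s a, tCell b i d], tCellN b i d, keepL b g ++ keepL b g)]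

/-- the rules of an action -/
def actRules (b g s rd a : ℕ) (act : FAct) : List HRule :=
  [([tSt b s, tCell b rd a], tFire b s a, keepL b g ++ zeroL g),
    ([tFire' b s a], tFire b s a, keepL b g ++ keepL b g)] ++
  (List.range g).map (fun e => ([tFire b s a], tFire' b s a, keepL b g ++ incL b g e)) ++
  (List.range g).map (fun e => ([tFire b s a], tSt b act.2.2.2, incL b g e ++ zeroL g)) ++
  (if act.1 = 1 then
    [([tFire b s a], tCellN b act.2.1 (act.2.2.1 + 1), keepL b g ++ zeroL g)] else []) ++
  (List.range b).flatMap fun i => (List.range b).flatMap fun d =>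
    cellRules b g s a act.1 act.2.1 i d

/-- the rules of the table -/
def tabRules (t : FTable) (b g : ℕ) : List HRule :=
  (List.range t.length).flatMap fun s =>
    (List.range (t.getD s (0, [])).2.length).flatMap fun a =>
      actRules b g s (t.rd s) a (t.act s a)

/-- from time `t` to time `t + 1` -/
def nextRules (b g : ℕ) : List HRule :=
  (List.range b).flatMap fun i => (List.range b).flatMap fun d => (List.range g).map fun e =>
    ([tCellN b i d], tCell b i d, incL b g e ++ keepL b g)

/-- all rules -/
def rules (t : FTable) (w : List Bool) (b g : ℕ) : List HRule :=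
  ([tSt b 1], 1, List.replicate g (forget b) ++ List.replicate g (forget b)) ::
    (inputRules w b g ++ (startRules w b g ++ (tabRules t b g ++ nextRules b g)))

/-- The Horn data of the table `t` and the input word `w`, with base `b` and `g` digits for the
time and `g` digits for the position. -/
def data (t : FTable) (w : List Bool) (b g : ℕ) : HData where
  b := b
  h := g + g
  nC := nC b
  rules := rules t w b g

end Gen

/-- all numbers in the table are small -/
structure FTable.Small (t : FTable) (b : ℕ) : Prop where
  len : t.length ≤ b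
  rd : ∀ r ∈ t, r.1 < b
  acts : ∀ r ∈ t, r.2.length ≤ b
  act : ∀ r ∈ t, ∀ a ∈ r.2, a.2.1 < b ∧ a.2.2.1 + 1 < b ∧ a.2.2.2 < b

end Vale.Agent.P310
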