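import Vale.Agent.P310.H260.Gen
import Vale.Agent.Lib.PolyTime.Lists2

/-!
# P310: the rules of the Horn data of a flat machine are computable in polynomial time
-/

set_option linter.unusedVariables false

namespace Vale.Agent.P310

open Vale.Agent.Lib.PolyTime

namespace Gen

variable {A : Set Word} {α : Type} [Enc α]

/-! ### Types and digit operations -/

theorem PT_ty {b tag u v : α → ℕ} (hb : PT A b) (ht : PT A tag) (hu : PT A u) (hv : PT A v) :
    PT A (fun x => ty (b x) (tag x) (u x) (v x)) := by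
  unfold ty
  fun_prop

theorem PT_keep {b : α → ℕ} (hb : PT A b) : PT A (fun x => keep (b x)) := by
  unfold keep
  fun_prop

theorem PT_inc {b : α → ℕ} (hb : PT A b) : PT A (fun x => inc (b x)) := by
  unfold inc
  fun_prop

theorem PT_dec {b : α → ℕ} (hb : PT A b) : PT A (fun x => dec (b x)) := by
  unfold dec
  fun_prop

theorem PT_sett {v v' : α → ℕ} (hv : PT A v) (hv' : PT A v') :
    PT A (fun x => sett (v x) (v' x)) := by
  unfold sett
  fun_prop

theorem PT_forget {b : α → ℕ} (hb : PT A b) : PT A (fun x => forget (b x)) := by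
  unfold forget
  fun_prop

theorem PT_ge {b lo : α → ℕ} (hb : PT A b) (hlo : PT A lo) : PT A (fun x => ge (b x) (lo x)) := by
  unfold ge
  fun_prop

section
variable {b : α → ℕ} {g : α → Un} (hb : PT A b) (hg : PT A g)
include hb hg

theorem PT_keepL : PT A (fun x => keepL (b x) (g x).v) :=
  PT.replicate hg.unVal (PBd.unVal hg) (PT_keep hb)

omit hb in
theorem PT_zeroL : PT A (fun x => zeroL (g x).v) :=
  PT.replicate hg.unVal (PBd.unVal hg) (PT_sett (PT.const 0) (PT.const 0))

/-- bounded version of `one` -/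
theorem PT_one {lo o : α → DOp} {j : α → ℕ} (hlo : PT A lo) (ho : PT A o) (hj : PT A j) :
    PT A (fun x => one (b x) (g x).v (lo x) (min (j x) (g x).v) (o x)) := by
  unfold one
  have h1 : PT A (fun x => min (j x) (g x).v) := PT.min hj hg.unVal
  have h2 : PBd (fun x => min (j x) (g x).v) :=
    (PBd.unVal hg).mono fun x => min_le_right _ _
  have h3 : PBd (fun x => (g x).v - 1 - min (j x) (g x).v) :=
    (PBd.unVal hg).mono fun x => by omega
  have h4 : PT A (fun x => (g x).v - 1 - min (j x) (g x).v) :=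
    PT.sub (PT.sub hg.unVal (PT.const 1)) h1
  exact PT.append (PT.replicate h1 h2 hlo) (PT.cons ho (PT.replicate h4 h3 (PT_keep hb)))

theorem PT_incL {j : α → ℕ} (hj : PT A j) :
    PT A (fun x => incL (b x) (g x).v (min (j x) (g x).v)) :=
  PT_one hb hg (PT_sett (PT.sub hb (PT.const 1)) (PT.const 0)) (PT_inc hb) hj

theorem PT_decL {j : α → ℕ} (hj : PT A j) :
    PT A (fun x => decL (b x) (g x).v (min (j x) (g x).v)) :=
  PT_one hb hg (PT_sett (PT.const 0) (PT.sub hb (PT.const 1))) (PT_dec hb) hj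

theorem PT_geL {n j : α → ℕ} (hn : PT A n) (hj : PT A j) :
    PT A (fun x => geL (b x) (g x).v (n x) (min (j x) (g x).v)) := by
  unfold geL
  refine PT_one hb hg (PT_keep hb) (PT_ge hb ?_) hj
  exact PT.ite (p := fun x => min (j x) (g x).v = 0)
    (PT.eqNat (PT.min hj hg.unVal) (PT.const 0)) hn (PT.const 1)

/-- a map over `range g` may use `min j g` instead of `j` -/
theorem PT_mapRange {β : Type} [Enc β] {f : α → ℕ → β}
    (hf : PT A (fun p : α × ℕ => f p.1 (min p.2 (g p.1).v))) :
    PT A (fun x => (List.range (g x).v).map (f x)) := by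
  refine (PT.map (f := fun x j => f x (min j (g x).v)) (PT.range hg.unVal (PBd.unVal hg))
    hf).congr fun x => ?_
  refine List.map_congr_left fun j hj => ?_
  rw [min_eq_left (List.mem_range.1 hj).le]

end

/-! ### The rules -/

section
variable {b g : α → Un} (hb : PT A b) (hg : PT A g)
include hb hg

theorem PT_inputRules {w : α → List Bool} (hw : PT A w) :
    PT A (fun x => inputRules (w x) (b x).v (g x).v) := by
  unfold inputRules
  refine PT.map (PT.range hw.length (PBd.length hw)) ?_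
  have hb' : PT A (fun p : α × ℕ => (b p.1).v) := (hb.unVal).comp PT.fst'
  have hg' : PT A (fun p : α × ℕ => g p.1) := hg.comp PT.fst'
  have hw' : PT A (fun p : α × ℕ => w p.1) := hw.comp PT.fst'
  have h1 : PT A (fun p : α × ℕ => (w p.1).getD p.2 false) :=
    PT.getD hw' PT.snd' (PT.const false)
  have h2 : PT A (fun p : α × ℕ => if (w p.1).getD p.2 false = true then 2 else 1) :=
    PT.ite (p := fun p : α × ℕ => (w p.1).getD p.2 false = true)
      (h1.congr fun p => by simp) (PT.const 2) (PT.const 1)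
  have h3 : PBd (fun p : α × ℕ => (g p.1).v - 1) :=
    (PBd.unVal hg').mono fun p => Nat.sub_le _ _
  exact PT.pair (PT.const [0]) (PT.pair (PT_ty hb' (PT.const 1) (PT.const 0) h2)
    (PT.append (PT_zeroL hg') (PT.cons (PT_sett (PT.const 0) PT.snd')
      (PT.replicate (PT.sub hg'.unVal (PT.const 1)) h3 (PT_sett (PT.const 0) (PT.const 0))))))

theorem PT_startRules {w : α → List Bool} (hw : PT A w) :
    PT A (fun x => startRules (w x) (b x).v (g x).v) := by
  unfold startRules
  have c0 : PT A (fun _ : α => 0) := PT.const 0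
  have hz := PT_zeroL (A := A) (g := g) hg
  have hk := PT_keepL hb.unVal hg
  have hb' : PT A (fun p : α × ℕ => (b p.1).v) := (hb.unVal).comp PT.fst'
  have hg' : PT A (fun p : α × ℕ => g p.1) := hg.comp PT.fst'
  have hw' : PT A (fun p : α × ℕ => w p.1) := hw.comp PT.fst'
  have c0' : PT A (fun _ : α × ℕ => 0) := PT.const 0
  have hk' := PT_keepL hb' hg'
  have hE : PT A (fun x => tE (b x).v) := PT_ty hb.unVal (PT.const 5) c0 c0
  have hE' : PT A (fun x => tE' (b x).v) := PT_ty hb.unVal (PT.const 6) c0 c0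
  have hEp : PT A (fun p : α × ℕ => tE (b p.1).v) := PT_ty hb' (PT.const 5) c0' c0'
  have hE'p : PT A (fun p : α × ℕ => tE' (b p.1).v) := PT_ty hb' (PT.const 6) c0' c0'
  refine PT.append (PT.append (PT.append (PT.cons ?_ (PT.cons ?_ (PT.cons ?_ PT.nil))) ?_) ?_) ?_
  · exact PT.pair (PT.const [0]) (PT.pair (PT_ty hb.unVal c0 c0 c0) (PT.append hz hz))
  · exact PT.pair (PT.const [0]) (PT.pair hE (PT.append hz hz))
  · exact PT.pair (PT.cons hE' PT.nil) (PT.pair hE (PT.append hk hk))
  · refine PT_mapRange hb.unVal hg ?_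
    exact PT.pair (PT.cons hEp PT.nil) (PT.pair hE'p (PT.append hk' (PT_incL hb' hg' PT.snd')))
  · refine PT_mapRange hb.unVal hg ?_
    exact PT.pair (PT.cons hEp PT.nil) (PT.pair (PT_ty hb' (PT.const 1) c0' c0')
      (PT.append hk' (PT_geL hb' hg' hw'.length PT.snd')))
  · refine PT.map (PT.range (PT.sub hb.unVal (PT.const 1))
      ((PBd.unVal hb).mono fun x => Nat.sub_le _ _)) ?_
    exact PT.pair (PT.cons hEp PT.nil) (PT.pair (PT_ty hb' (PT.const 1)
      (PT.add PT.snd' (PT.const 1)) c0') (PT.append hk' hk'))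

theorem PT_cellRules {s a op j i d : α → ℕ} (hs : PT A s) (ha : PT A a) (hop : PT A op)
    (hj : PT A j) (hi : PT A i) (hd : PT A d) :
    PT A (fun x => cellRules (b x).v (g x).v (s x) (a x) (op x) (j x) (i x) (d x)) := by
  unfold cellRules
  have hb' : PT A (fun p : α × ℕ => (b p.1).v) := (hb.unVal).comp PT.fst'
  have hg' : PT A (fun p : α × ℕ => g p.1) := hg.comp PT.fst'
  have hk := PT_keepL hb.unVal hg
  have hk' := PT_keepL hb' hg'
  have hF : PT A (fun x => tFire (b x).v (s x) (a x)) := PT_ty hb.unVal (PT.const 3) hs ha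
  have hC : PT A (fun x => tCell (b x).v (i x) (d x)) := PT_ty hb.unVal (PT.const 1) hi hd
  have hN : PT A (fun x => tCellN (b x).v (i x) (d x)) := PT_ty hb.unVal (PT.const 2) hi hd
  have hF' : PT A (fun p : α × ℕ => tFire (b p.1).v (s p.1) (a p.1)) := hF.comp PT.fst'
  have hC' : PT A (fun p : α × ℕ => tCell (b p.1).v (i p.1) (d p.1)) := hC.comp PT.fst'
  have hN' : PT A (fun p : α × ℕ => tCellN (b p.1).v (i p.1) (d p.1)) := hN.comp PT.fst'
  refine PT.ite (p := fun x => i x = j x ∧ op x = 1)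
    (PT.decide_and (PT.eqNat hi hj) (PT.eqNat hop (PT.const 1))) ?_
    (PT.ite (p := fun x => i x = j x ∧ op x = 2)
      (PT.decide_and (PT.eqNat hi hj) (PT.eqNat hop (PT.const 2))) ?_ ?_)
  · refine PT_mapRange hb.unVal hg ?_
    exact PT.pair (PT.cons hF' (PT.cons hC' PT.nil))
      (PT.pair hN' (PT.append hk' (PT_incL hb' hg' PT.snd')))
  · refine PT_mapRange hb.unVal hg ?_
    exact PT.pair (PT.cons hF' (PT.cons hC' PT.nil))
      (PT.pair hN' (PT.append hk' (PT_decL hb' hg' PT.snd')))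
  · exact PT.cons (PT.pair (PT.cons hF (PT.cons hC PT.nil)) (PT.pair hN (PT.append hk hk)))
      PT.nil

end

theorem PT_actRules {b g : α → Un} (hb : PT A b) (hg : PT A g) {s rd a : α → ℕ}
    {act : α → FAct} (hs : PT A s) (hrd : PT A rd) (ha : PT A a) (hact : PT A act) :
    PT A (fun x => actRules (b x).v (g x).v (s x) (rd x) (a x) (act x)) := by
  unfold actRules
  have c0 : PT A (fun _ : α => 0) := PT.const 0
  have hz := PT_zeroL (A := A) (g := g) hg
  have hk := PT_keepL hb.unVal hg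
  have hb' : PT A (fun p : α × ℕ => (b p.1).v) := (hb.unVal).comp PT.fst'
  have hg' : PT A (fun p : α × ℕ => g p.1) := hg.comp PT.fst'
  have hk' := PT_keepL hb' hg'
  have hz' := PT_zeroL (A := A) hg'
  have hF : PT A (fun x => tFire (b x).v (s x) (a x)) := PT_ty hb.unVal (PT.const 3) hs ha
  have hG : PT A (fun x => tFire' (b x).v (s x) (a x)) := PT_ty hb.unVal (PT.const 4) hs ha
  have hF' : PT A (fun p : α × ℕ => tFire (b p.1).v (s p.1) (a p.1)) := hF.comp PT.fst'
  have hG' : PT A (fun p : α × ℕ => tFire' (b p.1).v (s p.1) (a p.1)) := hG.comp PT.fst'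
  have hn' : PT A (fun p : α × ℕ => tSt (b p.1).v (act p.1).2.2.2) :=
    PT_ty hb' (PT.const 0) (hact.comp PT.fst').snd.snd.snd (PT.const 0)
  refine PT.append (PT.append (PT.append (PT.append (PT.cons ?_ (PT.cons ?_ PT.nil)) ?_) ?_) ?_) ?_
  · exact PT.pair (PT.cons (PT_ty hb.unVal c0 hs c0) (PT.cons (PT_ty hb.unVal (PT.const 1) hrd ha)
      PT.nil)) (PT.pair hF (PT.append hk hz))
  · exact PT.pair (PT.cons hG PT.nil) (PT.pair hF (PT.append hk hk))
  · refine PT_mapRange hb.unVal hg ?_
    exact PT.pair (PT.cons hF' PT.nil) (PT.pair hG' (PT.append hk' (PT_incL hb' hg' PT.snd')))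
  · refine PT_mapRange hb.unVal hg ?_
    exact PT.pair (PT.cons hF' PT.nil) (PT.pair hn' (PT.append (PT_incL hb' hg' PT.snd') hz'))
  · refine PT.ite (p := fun x => (act x).1 = 1) (PT.eqNat hact.fst (PT.const 1)) ?_ PT.nil
    exact PT.cons (PT.pair (PT.cons hF PT.nil) (PT.pair (PT_ty hb.unVal (PT.const 2)
      hact.snd.fst (PT.add hact.snd.snd.fst (PT.const 1))) (PT.append hk hz))) PT.nil
  · refine PT.flatMap (PT.range hb.unVal (PBd.unVal hb)) ?_
    refine PT.flatMap (l := fun p : α × ℕ => List.range (b p.1).v)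
      (f := fun (p : α × ℕ) d => cellRules (b p.1).v (g p.1).v (s p.1) (a p.1) (act p.1).1
        (act p.1).2.1 p.2 d)
      (PT.range hb' (PBd.unVal (hb.comp PT.fst'))) ?_
    have h2 : PT A (fun q : (α × ℕ) × ℕ => q.1.1) := PT.fst'.fst
    exact PT_cellRules (hb.comp h2) (hg.comp h2) (hs.comp h2) (ha.comp h2)
      (hact.comp h2).fst (hact.comp h2).snd.fst PT.fst'.snd PT.snd'

theorem PT_tabRules {b g : α → Un} (hb : PT A b) (hg : PT A g) {t : α → FTable} (ht : PT A t) :
    PT A (fun x => tabRules (t x) (b x).v (g x).v) := by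
  unfold tabRules
  refine PT.flatMap (PT.range ht.length (PBd.length ht)) ?_
  have ht' : PT A (fun p : α × ℕ => t p.1) := ht.comp PT.fst'
  have hrow : PT A (fun p : α × ℕ => (t p.1).getD p.2 (0, [])) :=
    PT.getD ht' PT.snd' (PT.const (0, []))
  refine PT.flatMap (l := fun p : α × ℕ => List.range ((t p.1).getD p.2 (0, [])).2.length)
    (f := fun (p : α × ℕ) a => actRules (b p.1).v (g p.1).v p.2 ((t p.1).rd p.2) a
      ((t p.1).act p.2 a))
    (PT.range hrow.snd.length (PBd.length hrow.snd)) ?_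
  have h2 : PT A (fun q : (α × ℕ) × ℕ => q.1.1) := PT.fst'.fst
  have hs : PT A (fun q : (α × ℕ) × ℕ => q.1.2) := PT.fst'.snd
  have hrow' : PT A (fun q : (α × ℕ) × ℕ => (t q.1.1).getD q.1.2 (0, [])) :=
    hrow.comp PT.fst'
  refine PT_actRules (hb.comp h2) (hg.comp h2) hs hrow'.fst PT.snd' ?_
  exact PT.getD hrow'.snd PT.snd'
    (PT.pair (PT.const 0) (PT.pair (PT.const 0) (PT.pair (PT.const 0) hs)))

theorem PT_nextRules {b g : α → Un} (hb : PT A b) (hg : PT A g) :
    PT A (fun x => nextRules (b x).v (g x).v) := by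
  unfold nextRules
  refine PT.flatMap (PT.range hb.unVal (PBd.unVal hb)) ?_
  refine PT.flatMap (l := fun p : α × ℕ => List.range (b p.1).v)
    (f := fun (p : α × ℕ) d => (List.range (g p.1).v).map fun e =>
      ([tCellN (b p.1).v p.2 d], tCell (b p.1).v p.2 d,
        incL (b p.1).v (g p.1).v e ++ keepL (b p.1).v (g p.1).v))
    (PT.range (hb.comp PT.fst').unVal (PBd.unVal (hb.comp PT.fst'))) ?_
  have h2 : PT A (fun q : (α × ℕ) × ℕ => q.1.1) := PT.fst'.fst
  refine PT_mapRange (g := fun q : (α × ℕ) × ℕ => g q.1.1) (hb.comp h2).unVal (hg.comp h2) ?_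
  have h3 : PT A (fun r : ((α × ℕ) × ℕ) × ℕ => r.1.1.1) := PT.fst'.fst.fst
  have hi : PT A (fun r : ((α × ℕ) × ℕ) × ℕ => r.1.1.2) := PT.fst'.fst.snd
  have hd : PT A (fun r : ((α × ℕ) × ℕ) × ℕ => r.1.2) := PT.fst'.snd
  exact PT.pair (PT.cons (PT_ty (hb.comp h3).unVal (PT.const 2) hi hd) PT.nil)
    (PT.pair (PT_ty (hb.comp h3).unVal (PT.const 1) hi hd)
      (PT.append (PT_incL (hb.comp h3).unVal (hg.comp h3) PT.snd')
        (PT_keepL (hb.comp h3).unVal (hg.comp h3))))

/-- The rules are computable in polynomial time from the table, the word and the unary numbers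
`b` and `g`. -/
theorem PT_rules {b g : α → Un} (hb : PT A b) (hg : PT A g) {t : α → FTable} (ht : PT A t)
    {w : α → List Bool} (hw : PT A w) :
    PT A (fun x => rules (t x) (w x) (b x).v (g x).v) := by
  unfold rules
  have hf := PT.replicate hg.unVal (PBd.unVal hg) (PT_forget hb.unVal)
  refine PT.cons ?_ (PT.append (PT_inputRules hb hg hw) (PT.append (PT_startRules hb hg hw)
    (PT.append (PT_tabRules hb hg ht) (PT_nextRules hb hg))))
  exact PT.pair (PT.cons (PT_ty hb.unVal (PT.const 0) (PT.const 1) (PT.const 0)) PT.nil)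
    (PT.pair (PT.const 1) (PT.append hf hf))

/-- Version with polynomially bounded binary numbers `b` and `g`. -/
theorem PT_rules' {b g : α → ℕ} (hb : PT A b) (hbb : PBd b) (hg : PT A g) (hgb : PBd g)
    {t : α → FTable} (ht : PT A t) {w : α → List Bool} (hw : PT A w) :
    PT A (fun x => rules (t x) (w x) (b x) (g x)) :=
  PT_rules (PT.mkUn hb hbb) (PT.mkUn hg hgb) ht hw

end Gen

end Vale.Agent.P310
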