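import Vale.Agent.P310.H260.Bridge

/-!
# P310: the Horn data of a flat machine: side conditions and soundness
-/

set_option linter.unusedVariables false

namespace Vale.Agent.P310

namespace Gen

variable {b : ℕ}

theorem ty_ge (tag u v : ℕ) : 2 ≤ ty b tag u v := by unfold ty; omega

theorem ty_lt {tag u v : ℕ} (h : tag < 8) (hu : u < b) (hv : v < b) : ty b tag u v < nC b := by
  unfold ty nC
  have h1 : b * v + b ≤ b * b := by
    calc b * v + b = b * (v + 1) := by ring
      _ ≤ b * b := Nat.mul_le_mul_left _ hv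
  omega

theorem ty_ne {tag u v tag' u' v' : ℕ} (h : tag < 8) (h' : tag' < 8) (hne : tag ≠ tag') :
    ty b tag u v ≠ ty b tag' u' v' := by
  unfold ty
  generalize u + b * v = x
  generalize u' + b * v' = y
  omega

theorem getD_rd {t : FTable} (hs : t.Small b) {s : ℕ} (h : s < t.length) : t.rd s < b := by
  unfold FTable.rd
  rw [List.getD_eq_getElem _ _ h]
  exact hs.rd _ (List.getElem_mem _)

theorem getD_acts {t : FTable} (hs : t.Small b) {s : ℕ} (h : s < t.length) :
    (t.getD s (0, [])).2.length ≤ b := by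
  rw [List.getD_eq_getElem _ _ h]
  exact hs.acts _ (List.getElem_mem _)

theorem getD_act {t : FTable} (hs : t.Small b) {s a : ℕ} (h : s < t.length)
    (ha : a < (t.getD s (0, [])).2.length) :
    (t.act s a).2.1 < b ∧ (t.act s a).2.2.1 + 1 < b ∧ (t.act s a).2.2.2 < b := by
  unfold FTable.act
  rw [List.getD_eq_getElem (l := (t.getD s (0, [])).2) _ ha]
  have h1 : t.getD s (0, []) ∈ t := by
    rw [List.getD_eq_getElem _ _ h]
    exact List.getElem_mem _
  exact hs.act _ h1 _ (List.getElem_mem _)

/-- the premise and conclusion types of the rules -/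
theorem IsRule.types {t : FTable} {w : List Bool} {g : ℕ} (hs : t.Small b) (hb : 3 ≤ b)
    {p : List ℕ} {c : ℕ} {A B : List DOp} (h : IsRule t w b g p c A B) :
    p ≠ [] ∧ p.length ≤ 2 ∧ p.Nodup ∧ (∀ x ∈ p, x < nC b) ∧ c < nC b ∧ c ∉ p ∧ c ≠ 0 ∧ 1 ∉ p := by
  have h0 : 0 < b := by omega
  have hn0 : ∀ tag u v, ty b tag u v ≠ 0 := fun tag u v => by have := ty_ge (b := b) tag u v; omega
  have hn1 : ∀ tag u v, ty b tag u v ≠ 1 := fun tag u v => by have := ty_ge (b := b) tag u v; omega
  have hnC : 2 ≤ nC b := by unfold nC; omega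
  have key : ∀ tag u v, tag < 8 → u < b → v < b → ∀ tag' u' v', tag' < 8 → u' < b → v' < b →
      tag ≠ tag' →
      [ty b tag u v] ≠ [] ∧ [ty b tag u v].length ≤ 2 ∧ [ty b tag u v].Nodup ∧
      (∀ x ∈ [ty b tag u v], x < nC b) ∧ ty b tag' u' v' < nC b ∧
      ty b tag' u' v' ∉ [ty b tag u v] ∧ ty b tag' u' v' ≠ 0 ∧ 1 ∉ [ty b tag u v] := by
    intro tag u v h1 h2 h3 tag' u' v' h1' h2' h3' hne
    refine ⟨by simp, by simp, by simp, ?_, ty_lt h1' h2' h3', ?_, hn0 _ _ _, ?_⟩
    · intro x hx
      rw [List.mem_singleton] at hx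
      subst hx
      exact ty_lt h1 h2 h3
    · rw [List.mem_singleton]
      exact ty_ne h1' h1 hne.symm
    · rw [List.mem_singleton]
      exact (hn1 _ _ _).symm
  have key0 : ∀ tag' u' v', tag' < 8 → u' < b → v' < b →
      [0] ≠ ([] : List ℕ) ∧ [0].length ≤ 2 ∧ [0].Nodup ∧
      (∀ x ∈ [0], x < nC b) ∧ ty b tag' u' v' < nC b ∧
      ty b tag' u' v' ∉ [0] ∧ ty b tag' u' v' ≠ 0 ∧ 1 ∉ [0] := by
    intro tag' u' v' h1' h2' h3'
    refine ⟨by simp, by simp, by simp, ?_, ty_lt h1' h2' h3', ?_, hn0 _ _ _, by simp⟩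
    · intro x hx
      rw [List.mem_singleton] at hx
      omega
    · rw [List.mem_singleton]
      exact hn0 _ _ _
  have key2 : ∀ tag u v, tag < 8 → u < b → v < b → ∀ tag₂ u₂ v₂, tag₂ < 8 → u₂ < b → v₂ < b →
      ∀ tag' u' v', tag' < 8 → u' < b → v' < b → tag ≠ tag' → tag₂ ≠ tag' → tag ≠ tag₂ →
      [ty b tag u v, ty b tag₂ u₂ v₂] ≠ [] ∧ [ty b tag u v, ty b tag₂ u₂ v₂].length ≤ 2 ∧
      [ty b tag u v, ty b tag₂ u₂ v₂].Nodup ∧
      (∀ x ∈ [ty b tag u v, ty b tag₂ u₂ v₂], x < nC b) ∧ ty b tag' u' v' < nC b ∧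
      ty b tag' u' v' ∉ [ty b tag u v, ty b tag₂ u₂ v₂] ∧ ty b tag' u' v' ≠ 0 ∧
      1 ∉ [ty b tag u v, ty b tag₂ u₂ v₂] := by
    intro tag u v h1 h2 h3 tag₂ u₂ v₂ g1 g2 g3 tag' u' v' h1' h2' h3' hne hne₂ hne₃
    refine ⟨by simp, by simp, ?_, ?_, ty_lt h1' h2' h3', ?_, hn0 _ _ _, ?_⟩
    · simpa using ty_ne (u := u) (v := v) (u' := u₂) (v' := v₂) h1 g1 hne₃
    · intro x hx
      rcases List.mem_cons.1 hx with rfl | hx
      · exact ty_lt h1 h2 h3
      · rw [List.mem_singleton] at hx
        subst hx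
        exact ty_lt g1 g2 g3
    · intro hx
      rcases List.mem_cons.1 hx with hx | hx
      · exact ty_ne h1' h1 hne.symm hx
      · exact ty_ne h1' g1 hne₂.symm (List.mem_singleton.1 hx)
    · intro hx
      rcases List.mem_cons.1 hx with hx | hx
      · exact hn1 _ _ _ hx.symm
      · exact hn1 _ _ _ (List.mem_singleton.1 hx).symm
  cases h with
  | acc =>
    refine ⟨by simp, by simp, by simp, ?_, by omega, ?_, by omega, ?_⟩
    · intro x hx
      rw [List.mem_singleton] at hx
      subst hx
      exact ty_lt (by omega) (by omega) h0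
    · rw [List.mem_singleton]
      exact (hn1 _ _ _).symm
    · rw [List.mem_singleton]
      exact (hn1 _ _ _).symm
  | input p hp => exact key0 _ _ _ (by omega) h0 (by split_ifs <;> omega)
  | startSt => exact key0 _ _ _ (by omega) h0 h0
  | startE => exact key0 _ _ _ (by omega) h0 h0
  | EE' j hj => exact key _ _ _ (by omega) h0 h0 _ _ _ (by omega) h0 h0 (by omega)
  | E'E => exact key _ _ _ (by omega) h0 h0 _ _ _ (by omega) h0 h0 (by omega)
  | empty0 j hj => exact key _ _ _ (by omega) h0 h0 _ _ _ (by omega) h0 h0 (by omega)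
  | empty i hi => exact key _ _ _ (by omega) h0 h0 _ _ _ (by omega) hi h0 (by omega)
  | fire s a hs' ha =>
    have h1 := getD_acts hs hs'
    have h2 := hs.len
    exact key2 _ _ _ (by omega) (by omega) h0 _ _ _ (by omega) (getD_rd hs hs') (by omega) _ _ _
      (by omega) (by omega) (by omega) (by omega) (by omega) (by omega)
  | FF' s a hs' ha e he =>
    have h1 := getD_acts hs hs'
    have h2 := hs.len
    exact key _ _ _ (by omega) (by omega) (by omega) _ _ _ (by omega) (by omega) (by omega)
      (by omega)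
  | F'F s a hs' ha =>
    have h1 := getD_acts hs hs'
    have h2 := hs.len
    exact key _ _ _ (by omega) (by omega) (by omega) _ _ _ (by omega) (by omega) (by omega)
      (by omega)
  | state s a hs' ha e he =>
    have h1 := getD_acts hs hs'
    have h2 := hs.len
    have h3 := getD_act hs hs' ha
    exact key _ _ _ (by omega) (by omega) (by omega) _ _ _ (by omega) h3.2.2 h0 (by omega)
  | push s a hs' ha hop =>
    have h1 := getD_acts hs hs'
    have h2 := hs.len
    have h3 := getD_act hs hs' ha
    exact key _ _ _ (by omega) (by omega) (by omega) _ _ _ (by omega) h3.1 h3.2.1 (by omega)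
  | pushCell s a hs' ha hop d hd hi e he =>
    have h1 := getD_acts hs hs'
    have h2 := hs.len
    exact key2 _ _ _ (by omega) (by omega) (by omega) _ _ _ (by omega) hi hd _ _ _
      (by omega) hi hd (by omega) (by omega) (by omega)
  | popCell s a hs' ha hop d hd hi e he =>
    have h1 := getD_acts hs hs'
    have h2 := hs.len
    exact key2 _ _ _ (by omega) (by omega) (by omega) _ _ _ (by omega) hi hd _ _ _
      (by omega) hi hd (by omega) (by omega) (by omega)
  | cell s a hs' ha i hi d hd h1 h2 =>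
    have h1 := getD_acts hs hs'
    have h2 := hs.len
    exact key2 _ _ _ (by omega) (by omega) (by omega) _ _ _ (by omega) hi hd _ _ _
      (by omega) hi hd (by omega) (by omega) (by omega)
  | next i hi d hd e he => exact key _ _ _ (by omega) hi hd _ _ _ (by omega) hi hd (by omega)

/-- **Side conditions.** The Horn data of a flat machine are well-formed. -/
theorem ok {t : FTable} {w : List Bool} {g : ℕ} (hs : t.Small b) (hb : 3 ≤ b) (hg : 0 < g) :
    (data t w b g).Ok where
  hb := by show 0 < b; omega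
  hh := by show 0 < g + g; omega
  hC := by show 2 ≤ nC b; unfold nC; omega
  hR := by show 0 < (rules t w b g).length; simp [rules]
  ne R hR := by
    obtain ⟨p, c, A, B, rfl, h⟩ := mem_rules.1 hR
    exact (h.types hs hb).1
  len R hR := by
    obtain ⟨p, c, A, B, rfl, h⟩ := mem_rules.1 hR
    exact (h.types hs hb).2.1
  nodup R hR := by
    obtain ⟨p, c, A, B, rfl, h⟩ := mem_rules.1 hR
    exact (h.types hs hb).2.2.1
  lt R hR := by
    obtain ⟨p, c, A, B, rfl, h⟩ := mem_rules.1 hR
    exact (h.types hs hb).2.2.2.1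
  concl_lt R hR := by
    obtain ⟨p, c, A, B, rfl, h⟩ := mem_rules.1 hR
    exact (h.types hs hb).2.2.2.2.1
  concl_notin R hR := by
    obtain ⟨p, c, A, B, rfl, h⟩ := mem_rules.1 hR
    exact (h.types hs hb).2.2.2.2.2.1
  concl_ne R hR := by
    obtain ⟨p, c, A, B, rfl, h⟩ := mem_rules.1 hR
    exact (h.types hs hb).2.2.2.2.2.2.1
  goal_notin R hR := by
    obtain ⟨p, c, A, B, rfl, h⟩ := mem_rules.1 hR
    exact (h.types hs hb).2.2.2.2.2.2.2
  goal_zero R hR := by
    obtain ⟨p, c, A, B, rfl, h⟩ := mem_rules.1 hR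
    intro hc j hj d hd
    have hj' : j < g + g := hj
    have hn1 : ∀ tag u v, ty b tag u v ≠ 1 := fun tag u v => by
      have := ty_ge (b := b) tag u v
      omega
    cases h with
    | acc =>
      have e : HRule.op ([tSt b 1], 1, List.replicate g (forget b) ++ List.replicate g (forget b)) j
          = forget b := by
        unfold HRule.op
        rw [List.replicate_append_replicate]
        simp [hj']
      rw [e]
      simp [DOp.val, forget]
    | _ => exact absurd hc (hn1 _ _ _)

/-! ### Soundness -/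

/-- the code at position `π` of a stack -/
def cd : List ℕ → ℕ → ℕ
  | [], _ => 0
  | c :: _, 0 => c + 1
  | _ :: l, π + 1 => cd l π

@[simp] theorem cd_nil (π : ℕ) : cd [] π = 0 := by simp [cd]
@[simp] theorem cd_cons_zero (c : ℕ) (l : List ℕ) : cd (c :: l) 0 = c + 1 := rfl
@[simp] theorem cd_cons_succ (c : ℕ) (l : List ℕ) (π : ℕ) : cd (c :: l) (π + 1) = cd l π := rfl

theorem rcode_eq (l : List ℕ) : rcode l = cd l 0 := by cases l <;> rfl

theorem cd_tail (l : List ℕ) (π : ℕ) : cd l.tail π = cd l (π + 1) := by cases l <;> simp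

theorem cd_map (f : Bool → ℕ) (w : List Bool) (π : ℕ) : cd (w.map f) π =
    if π < w.length then f (w.getD π false) + 1 else 0 := by
  induction w generalizing π with
  | nil => simp
  | cons x w ih =>
    cases π with
    | zero => simp
    | succ π => simp [ih]

theorem run_succ (t : FTable) (w : List Bool) (n : ℕ) : t.run w (n + 1) = t.step (t.run w n) := by
  unfold FTable.run
  rw [Function.iterate_succ_apply']

/-- the invariant of the types with `tag` -/
def InvT (t : FTable) (w : List Bool) : ℕ → ℕ → ℕ → ℕ → ℕ → Prop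
  | 0, s, _, τ, π => π = 0 ∧ (t.run w τ).1 = s
  | 1, i, a, τ, π => cd ((t.run w τ).2 i) π = a
  | 2, i, a, τ, π => cd ((t.run w (τ + 1)).2 i) π = a
  | 3, s, a, τ, _ => (t.run w τ).1 = s ∧ cd ((t.run w τ).2 (t.rd s)) 0 = a
  | 4, s, a, τ, _ => (t.run w τ).1 = s ∧ cd ((t.run w τ).2 (t.rd s)) 0 = a
  | 5, _, _, τ, _ => τ = 0
  | 6, _, _, τ, _ => τ = 0
  | _, _, _, _, _ => True

/-- the invariant -/
def Inv (t : FTable) (w : List Bool) (b g : ℕ) : ℕ → ℕ → ℕ → Prop
  | 0, τ, π => τ = 0 ∧ π = 0
  | 1, _, _ => ∃ n < b ^ g, t.AccAt w n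
  | n + 2, τ, π => InvT t w (n % 8) (n / 8 % b) (n / 8 / b) τ π

theorem inv_ty {t : FTable} {w : List Bool} {g tag u v τ π : ℕ} (h : tag < 8) (hu : u < b) :
    Inv t w b g (ty b tag u v) τ π ↔ InvT t w tag u v τ π := by
  unfold ty
  rw [Nat.add_comm 2 _]
  show InvT t w ((tag + 8 * (u + b * v)) % 8) ((tag + 8 * (u + b * v)) / 8 % b)
    ((tag + 8 * (u + b * v)) / 8 / b) τ π ↔ _
  have e1 : (tag + 8 * (u + b * v)) % 8 = tag := by omega
  have e2 : (tag + 8 * (u + b * v)) / 8 = u + b * v := by omega
  have e3 : (u + b * v) % b = u := by rw [Nat.add_mul_mod_self_left, Nat.mod_eq_of_lt hu]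
  have e4 : (u + b * v) / b = v := by
    rw [Nat.add_mul_div_left _ _ (by omega), Nat.div_eq_of_lt hu, Nat.zero_add]
  rw [e1, e2, e3, e4]

theorem step_at {t : FTable} {w : List Bool} {s a τ : ℕ}
    (h : (t.run w τ).1 = s ∧ cd ((t.run w τ).2 (t.rd s)) 0 = a) :
    t.run w (τ + 1) = ((t.act s a).2.2.2, (t.act s a).upd (t.run w τ).2) := by
  rw [run_succ]
  unfold FTable.step
  simp only
  rw [h.1, rcode_eq, h.2]

/-- the invariant is preserved by all rules -/
theorem IsRule.sound {t : FTable} {w : List Bool} {g : ℕ} (hs : t.Small b) (hb : 3 ≤ b)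
    (hw : w.length < b) (hg : 0 < g) {p : List ℕ} {c : ℕ} {A B : List DOp}
    (h : IsRule t w b g p c A B) {u u' v v' : List ℕ} (hA : RelL b A u u') (hB : RelL b B v v')
    (hp : ∀ x ∈ p, Inv t w b g x (num b u) (num b v)) :
    Inv t w b g c (num b u') (num b v') := by
  have h0 : 0 < b := by omega
  have hulen : u.length = g := hA.length.1.trans (h.length hg).1
  have hτ : num b u < b ^ g := by
    have := num_lt u (hA.lt.1)
    rwa [hulen] at this
  have zero_rel : ∀ {x x' : List ℕ}, RelL b (zeroL g) x x' → num b x = 0 ∧ num b x' = 0 := by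
    intro x x' hx
    have h1 := (relL_sett h0 h0).1 hx
    rw [h1.1, h1.2, num_replicate_zero]
    exact ⟨rfl, rfl⟩
  have keep_rel : ∀ {x x' : List ℕ}, RelL b (keepL b g) x x' → num b x' = num b x := by
    intro x x' hx
    rw [(relL_keep.1 hx).2.2]
  cases h with
  | acc =>
    have h1 := (inv_ty (by omega) (by omega)).1 (hp _ (List.mem_singleton_self _))
    exact ⟨_, hτ, h1.2⟩
  | input p hp' =>
    have h1 := zero_rel hA
    have h2 : num b v' = p := by
      match v, v', hB with
      | d :: v, d' :: v', hB =>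
        have h3 := (relL_sett h0 h0).1 hB.2
        have h4 := hB.1.2.2
        have h5 : (sett 0 p).val b d = p := by
          simp only [DOp.val, sett]
          rw [zero_mul, show 0 + (p + 1) - 1 = p by omega, Nat.mod_eq_of_lt (by omega)]
        rw [h5] at h4
        rw [h3.2, h4]
        show p + b * num b (List.replicate (g - 1) 0) = p
        rw [num_replicate_zero, mul_zero, add_zero]
    rw [inv_ty (by omega) h0, h1.2, h2]
    show cd ((fstart w).2 0) p = _
    unfold fstart
    simp only [if_true]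
    rw [cd_map, if_pos hp']
    cases w.getD p false <;> simp
  | startSt =>
    rw [inv_ty (by omega) h0, (zero_rel hA).2, (zero_rel hB).2]
    exact ⟨rfl, rfl⟩
  | startE =>
    rw [inv_ty (by omega) h0, (zero_rel hA).2]
    rfl
  | EE' j hj =>
    have h1 := (inv_ty (by omega) h0).1 (hp _ (List.mem_singleton_self _))
    rw [inv_ty (by omega) h0, keep_rel hA]
    exact h1
  | E'E =>
    have h1 := (inv_ty (by omega) h0).1 (hp _ (List.mem_singleton_self _))
    rw [inv_ty (by omega) h0, keep_rel hA]
    exact h1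
  | empty0 j hj =>
    have h1 : num b u = 0 := (inv_ty (by omega) h0).1 (hp _ (List.mem_singleton_self _))
    have h2 := relL_geL_sound hj hw hB
    rw [inv_ty (by omega) h0, keep_rel hA, h1, h2.1]
    show cd ((fstart w).2 0) _ = _
    unfold fstart
    simp only [if_true]
    rw [cd_map, if_neg (by omega)]
  | empty i hi =>
    have h1 : num b u = 0 := (inv_ty (by omega) h0).1 (hp _ (List.mem_singleton_self _))
    rw [inv_ty (by omega) hi, keep_rel hA, h1]
    show cd ((fstart w).2 (i + 1)) _ = _
    unfold fstart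
    simp
  | fire s a hs' ha =>
    have hsb : s < b := lt_of_lt_of_le hs' hs.len
    have h1 := (inv_ty (by omega) hsb).1 (hp _ (List.mem_cons_self ..))
    have h2 := (inv_ty (by omega) (getD_rd hs hs')).1
      (hp _ (List.mem_cons_of_mem _ (List.mem_singleton_self _)))
    have h3 := zero_rel hB
    rw [inv_ty (by omega) hsb, keep_rel hA]
    rw [h3.1] at h2
    exact ⟨h1.2, h2⟩
  | FF' s a hs' ha e he =>
    have hsb : s < b := lt_of_lt_of_le hs' hs.len
    have h1 := (inv_ty (by omega) hsb).1 (hp _ (List.mem_cons_self ..))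
    rw [inv_ty (by omega) hsb, keep_rel hA]
    exact h1
  | F'F s a hs' ha =>
    have hsb : s < b := lt_of_lt_of_le hs' hs.len
    have h1 := (inv_ty (by omega) hsb).1 (hp _ (List.mem_cons_self ..))
    rw [inv_ty (by omega) hsb, keep_rel hA]
    exact h1
  | state s a hs' ha e he =>
    have hsb : s < b := lt_of_lt_of_le hs' hs.len
    have h1 := (inv_ty (by omega) hsb).1 (hp _ (List.mem_cons_self ..))
    rw [inv_ty (by omega) (getD_act hs hs' ha).2.2, relL_incL_sound he hA, (zero_rel hB).2]
    refine ⟨rfl, ?_⟩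
    rw [step_at h1]
  | push s a hs' ha hop =>
    have hsb : s < b := lt_of_lt_of_le hs' hs.len
    have h1 := (inv_ty (by omega) hsb).1 (hp _ (List.mem_cons_self ..))
    rw [inv_ty (by omega) (getD_act hs hs' ha).1, keep_rel hA, (zero_rel hB).2]
    show cd ((t.run w (num b u + 1)).2 _) 0 = _
    rw [step_at h1]
    simp [FAct.upd, hop]
  | pushCell s a hs' ha hop d hd hi e he =>
    have hsb : s < b := lt_of_lt_of_le hs' hs.len
    have h1 := (inv_ty (by omega) hsb).1 (hp _ (List.mem_cons_self ..))
    have h2 := (inv_ty (by omega) hi).1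
      (hp _ (List.mem_cons_of_mem _ (List.mem_singleton_self _)))
    rw [inv_ty (by omega) hi, keep_rel hA, relL_incL_sound he hB]
    show cd ((t.run w (num b u + 1)).2 _) _ = _
    rw [step_at h1]
    simp only [FAct.upd, hop, if_true, Function.update_self, cd_cons_succ]
    exact h2
  | popCell s a hs' ha hop d hd hi e he =>
    have hsb : s < b := lt_of_lt_of_le hs' hs.len
    have h1 := (inv_ty (by omega) hsb).1 (hp _ (List.mem_cons_self ..))
    have h2 := (inv_ty (by omega) hi).1
      (hp _ (List.mem_cons_of_mem _ (List.mem_singleton_self _)))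
    rw [inv_ty (by omega) hi, keep_rel hA]
    show cd ((t.run w (num b u + 1)).2 _) _ = _
    rw [step_at h1]
    have h3 : ¬ ((2 : ℕ) = 1) := by omega
    simp only [FAct.upd, hop, if_neg h3, if_true, Function.update_self, cd_tail]
    rw [relL_decL_sound he hB]
    exact h2
  | cell s a hs' ha i hi d hd h1 h2 =>
    have hsb : s < b := lt_of_lt_of_le hs' hs.len
    have h3 := (inv_ty (by omega) hsb).1 (hp _ (List.mem_cons_self ..))
    have h4 := (inv_ty (by omega) hi).1
      (hp _ (List.mem_cons_of_mem _ (List.mem_singleton_self _)))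
    rw [inv_ty (by omega) hi, keep_rel hA, keep_rel hB]
    show cd ((t.run w (num b u + 1)).2 _) _ = _
    rw [step_at h3]
    have h5 : (t.act s a).upd (t.run w (num b u)).2 i = (t.run w (num b u)).2 i := by
      unfold FAct.upd
      split_ifs with g1 g2
      · exact Function.update_of_ne (fun e => h1 ⟨e, g1⟩) _ _
      · exact Function.update_of_ne (fun e => h2 ⟨e, g2⟩) _ _
      · rfl
    show cd ((t.act s a).upd (t.run w (num b u)).2 i) (num b v) = d
    rw [h5]
    exact h4
  | next i hi d hd e he =>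
    have h1 := (inv_ty (by omega) hi).1 (hp _ (List.mem_singleton_self _))
    rw [inv_ty (by omega) hi, relL_incL_sound he hA, keep_rel hB]
    exact h1

/-- **Soundness.** -/
theorem sound {t : FTable} {w : List Bool} {g : ℕ} (hs : t.Small b) (hb : 3 ≤ b)
    (hw : w.length < b) (hg : 0 < g) (h : (data t w b g).NDer 1 fun _ => 0) :
    ∃ n < b ^ g, t.AccAt w n := by
  have hlen : ∀ r ∈ (data t w b g).rules, r.2.2.length = (data t w b g).h := by
    intro r hr
    obtain ⟨p, c, A, B, rfl, h⟩ := mem_rules.1 hr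
    have h1 := h.length hg
    show (A ++ B).length = g + g
    simp [h1.1, h1.2]
  have key := nder_ind (D := data t w b g)
    (fun c x => Inv t w b g c (num b (x.take g)) (num b (x.drop g))) ?_ hlen ?_ h
  · exact key
  · show Inv t w b g 0 (num b ((List.replicate (g + g) 0).take g))
      (num b ((List.replicate (g + g) 0).drop g))
    rw [List.take_replicate, List.drop_replicate, num_replicate_zero, num_replicate_zero]
    exact ⟨rfl, rfl⟩
  · intro r hr x x' hx hp
    obtain ⟨p, c, A, B, rfl, h⟩ := mem_rules.1 hr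
    have h1 := h.length hg
    obtain ⟨u, v, u', v', rfl, rfl, hA, hB⟩ := relL_split hx
    have hu : u.length = g := hA.length.1.trans h1.1
    have hu' : u'.length = g := hA.length.2.trans h1.1
    simp only [List.take_left' hu, List.drop_left' hu] at hp
    show Inv t w b g c (num b ((u' ++ v').take g)) (num b ((u' ++ v').drop g))
    rw [List.take_left' hu', List.drop_left' hu']
    exact h.sound hs hb hw hg hA hB hp

end Gen

end Vale.Agent.P310
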