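import Vale.Agent.P310.H853.Main
import Vale.Agent.P310.H260.Complete

/-!
# P310: the Horn data simulate the machine
-/

namespace Vale.Agent.P310

theorem genSpec : GenSpec := fun _ _ _ _ hs hb hw hg =>
  ⟨Gen.ok hs hb hg, Gen.goal_iff hs hb hw hg⟩

end Vale.Agent.P310
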